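import Vale.Agent.P088.H198.Defs

/-!
# P088, rows A1 and A2: smoothness of the series, products and convolutions
-/

open MeasureTheory Set
open scoped ContDiff

noncomputable section

namespace Vale.Agent.P088.LR.H501

variable {n : ℕ}

theorem wt_pos (k : Ix n) : 0 < wt k := by
  unfold wt
  have : 0 ≤ ∑ j, |(k j : ℝ)| := Finset.sum_nonneg fun _ _ => abs_nonneg _
  linarith

theorem one_le_wt (k : Ix n) : 1 ≤ wt k := by
  unfold wt
  have : 0 ≤ ∑ j, |(k j : ℝ)| := Finset.sum_nonneg fun _ _ => abs_nonneg _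
  linarith

theorem wt_sub (k l : Ix n) : wt k ≤ wt (k - l) * wt l := by
  unfold wt
  have h1 : ∑ j, |(k j : ℝ)| ≤ ∑ j, |(((k - l) j : ℤ) : ℝ)| + ∑ j, |(l j : ℝ)| := by
    rw [← Finset.sum_add_distrib]
    refine Finset.sum_le_sum fun j _ => ?_
    have : (k j : ℝ) = (((k - l) j : ℤ) : ℝ) + (l j : ℝ) := by
      simp
    rw [this]
    exact abs_add_le _ _
  have h2 : 0 ≤ ∑ j, |(((k - l) j : ℤ) : ℝ)| := Finset.sum_nonneg fun _ _ => abs_nonneg _
  have h3 : 0 ≤ ∑ j, |(l j : ℝ)| := Finset.sum_nonneg fun _ _ => abs_nonneg _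
  nlinarith [mul_nonneg h2 h3]

theorem norm_ex (ξ x : V n) : ‖ex ξ x‖ = 1 := by
  unfold ex
  rw [show (2 * (Real.pi : ℂ) * Complex.I * ((∑ j, ξ j * x j : ℝ) : ℂ))
    = ((2 * Real.pi * (∑ j, ξ j * x j) : ℝ) : ℂ) * Complex.I by push_cast; ring]
  exact Complex.norm_exp_ofReal_mul_I _

theorem ex_add (ξ η x : V n) : ex (ξ + η) x = ex ξ x * ex η x := by
  unfold ex
  rw [← Complex.exp_add]
  congr 1
  rw [← mul_add, ← Complex.ofReal_add, ← Finset.sum_add_distrib]
  congr 3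
  funext j
  simp only [Pi.add_apply]
  ring

/-- The linear form `x ↦ 2πi ξ·x`. -/
def Lf (ξ : V n) : V n →L[ℝ] ℂ :=
  ∑ i, (ContinuousLinearMap.proj i : V n →L[ℝ] ℝ).smulRight
    (2 * Real.pi * Complex.I * ((ξ i : ℝ) : ℂ))

theorem Lf_apply (ξ x : V n) :
    Lf ξ x = 2 * Real.pi * Complex.I * ((∑ j, ξ j * x j : ℝ) : ℂ) := by
  unfold Lf
  rw [sum_apply]
  simp only [ContinuousLinearMap.smulRight_apply, ContinuousLinearMap.proj_apply,
    Complex.real_smul]
  push_cast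
  rw [Finset.mul_sum]
  refine Finset.sum_congr rfl fun j _ => ?_
  ring

theorem hasFDerivAt_ex (ξ x : V n) : HasFDerivAt (ex ξ) (ex ξ x • Lf ξ) x := by
  have h : ex ξ = fun y => Complex.exp (Lf ξ y) := by
    funext y
    rw [Lf_apply]
    rfl
  rw [h]
  exact ((Lf ξ).hasFDerivAt (x := x)).cexp

/-- The coefficients of the `i`-th partial derivative. -/
def dc (θ : V n) (c : Ix n → ℂ) (i : Fin n) (k : Ix n) : ℂ :=
  2 * Real.pi * Complex.I * ((fr θ k i : ℝ) : ℂ) * c k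

theorem abs_fr_le (θ : V n) (k : Ix n) (i : Fin n) :
    |fr θ k i| ≤ (1 + ∑ j, |θ j|) * wt k := by
  have h1 : |fr θ k i| ≤ |(k i : ℝ)| + |θ i| := abs_add_le _ _
  have h2 : |(k i : ℝ)| ≤ ∑ j, |(k j : ℝ)| :=
    Finset.single_le_sum (f := fun j => |(k j : ℝ)|) (fun _ _ => abs_nonneg _) (Finset.mem_univ i)
  have h3 : |θ i| ≤ ∑ j, |θ j| :=
    Finset.single_le_sum (f := fun j => |θ j|) (fun _ _ => abs_nonneg _) (Finset.mem_univ i)
  have h4 : 0 ≤ ∑ j, |(k j : ℝ)| := Finset.sum_nonneg fun _ _ => abs_nonneg _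
  have h5 : 0 ≤ ∑ j, |θ j| := Finset.sum_nonneg fun _ _ => abs_nonneg _
  unfold wt
  nlinarith [mul_nonneg h4 h5]

theorem norm_dc_le (θ : V n) (c : Ix n → ℂ) (i : Fin n) (k : Ix n) :
    ‖dc θ c i k‖ ≤ 2 * Real.pi * (1 + ∑ j, |θ j|) * (wt k * ‖c k‖) := by
  unfold dc
  rw [norm_mul, norm_mul, norm_mul, norm_mul, Complex.norm_I, Complex.norm_real, Complex.norm_real,
    Real.norm_eq_abs, Real.norm_eq_abs, abs_of_pos Real.pi_pos]
  have h2 : ‖(2 : ℂ)‖ = 2 := by norm_num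
  rw [h2]
  have := abs_fr_le θ k i
  have hp := Real.pi_pos
  have h3 : 2 * Real.pi * |fr θ k i| ≤ 2 * Real.pi * ((1 + ∑ j, |θ j|) * wt k) := by gcongr
  calc 2 * Real.pi * 1 * |fr θ k i| * ‖c k‖
      = (2 * Real.pi * |fr θ k i|) * ‖c k‖ := by ring
    _ ≤ (2 * Real.pi * ((1 + ∑ j, |θ j|) * wt k)) * ‖c k‖ :=
        mul_le_mul_of_nonneg_right h3 (norm_nonneg _)
    _ = _ := by ring

theorem rd_dc {c : Ix n → ℂ} (hc : RD c) (θ : V n) (i : Fin n) : RD (dc θ c i) := by
  intro m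
  refine Summable.of_nonneg_of_le (fun k => by have := wt_pos k; positivity) (fun k => ?_)
    ((hc (m + 1)).mul_left (2 * Real.pi * (1 + ∑ j, |θ j|)))
  have h := norm_dc_le θ c i k
  have hw := wt_pos k
  calc wt k ^ m * ‖H501.dc θ c i k‖
      ≤ wt k ^ m * (2 * Real.pi * (1 + ∑ j, |θ j|) * (wt k * ‖c k‖)) := by gcongr
    _ = _ := by ring

theorem rd_summable_norm {c : Ix n → ℂ} (hc : RD c) : Summable fun k => ‖c k‖ := by
  simpa using hc 0

theorem rd_summable_term {c : Ix n → ℂ} (hc : RD c) (θ x : V n) :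
    Summable fun k => c k * ex (fr θ k) x := by
  refine Summable.of_norm ?_
  simpa [norm_ex] using rd_summable_norm hc

theorem rd_summable_norm_term {c : Ix n → ℂ} (hc : RD c) (θ x : V n) :
    Summable fun k => ‖c k * ex (fr θ k) x‖ := by
  simpa [norm_ex] using rd_summable_norm hc

/-- The derivative of the series. -/
def D (θ : V n) (c : Ix n → ℂ) (x : V n) : V n →L[ℝ] ℂ :=
  ∑ i, (ContinuousLinearMap.proj i : V n →L[ℝ] ℝ).smulRight (Es θ (dc θ c i) x)

theorem D_apply_single (θ : V n) (c : Ix n → ℂ) (x : V n) (i : Fin n) :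
    D θ c x (Pi.single i 1) = Es θ (dc θ c i) x := by
  unfold D
  rw [sum_apply]
  simp only [ContinuousLinearMap.smulRight_apply, ContinuousLinearMap.proj_apply]
  rw [Finset.sum_eq_single i]
  · simp
  · intro j _ hj
    simp [Pi.single_eq_of_ne hj]
  · simp

theorem term_eq (θ : V n) (c : Ix n → ℂ) (k : Ix n) (x : V n) :
    (c k * ex (fr θ k) x) • Lf (fr θ k)
      = ∑ i, (ContinuousLinearMap.proj i : V n →L[ℝ] ℝ).smulRight (dc θ c i k * ex (fr θ k) x) := by
  ext y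
  rw [sum_apply]
  simp only [smul_apply, Lf_apply, ContinuousLinearMap.smulRight_apply,
    ContinuousLinearMap.proj_apply, Complex.real_smul, smul_eq_mul, dc]
  push_cast
  rw [Finset.mul_sum, Finset.mul_sum]
  refine Finset.sum_congr rfl fun j _ => ?_
  ring

theorem norm_smulRight_le (i : Fin n) (z : ℂ) :
    ‖(ContinuousLinearMap.proj i : V n →L[ℝ] ℝ).smulRight z‖ ≤ ‖z‖ := by
  refine ContinuousLinearMap.opNorm_le_bound _ (norm_nonneg _) fun x => ?_
  rw [ContinuousLinearMap.smulRight_apply, ContinuousLinearMap.proj_apply, norm_smul, mul_comm]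
  exact mul_le_mul_of_nonneg_left (norm_le_pi_norm x i) (norm_nonneg _)

theorem hasFDerivAt_Es {c : Ix n → ℂ} (hc : RD c) (θ x : V n) :
    HasFDerivAt (Es θ c) (D θ c x) x := by
  have hsum : Summable fun k => ∑ i, ‖dc θ c i k‖ := by
    refine summable_sum fun i _ => ?_
    exact rd_summable_norm (rd_dc hc θ i)
  have key := hasFDerivAt_tsum (𝕜 := ℝ) (f := fun k (y : V n) => c k * ex (fr θ k) y)
    (f' := fun k (y : V n) => (c k * ex (fr θ k) y) • Lf (fr θ k))
    (u := fun k => ∑ i, ‖dc θ c i k‖) (x₀ := x) hsum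
    (fun k y => by
      have h := (hasFDerivAt_ex (fr θ k) y).const_mul (c k)
      rwa [smul_smul] at h)
    (fun k y => by
      rw [term_eq]
      refine (norm_sum_le _ _).trans (Finset.sum_le_sum fun i _ => ?_)
      refine (norm_smulRight_le i _).trans ?_
      rw [norm_mul, norm_ex, mul_one])
    (rd_summable_term hc θ x) x
  have hD : (∑' k, (c k * ex (fr θ k) x) • Lf (fr θ k)) = D θ c x := by
    refine HasSum.tsum_eq ?_
    simp_rw [term_eq]
    unfold D
    refine hasSum_sum fun i _ => ?_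
    have h := (rd_summable_term (rd_dc hc θ i) θ x).hasSum
    exact h.mapL ((ContinuousLinearMap.smulRightL ℝ (V n) ℂ) (ContinuousLinearMap.proj i))
  rw [hD] at key
  exact key

theorem contDiff_Es_nat (θ : V n) (m : ℕ) : ∀ {c : Ix n → ℂ}, RD c → ContDiff ℝ m (Es θ c) := by
  induction m with
  | zero =>
    intro c hc
    rw [Nat.cast_zero, contDiff_zero]
    exact continuous_iff_continuousAt.2 fun x => (hasFDerivAt_Es hc θ x).continuousAt
  | succ m ih =>
    intro c hc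
    rw [Nat.cast_succ, contDiff_succ_iff_fderiv]
    refine ⟨fun x => (hasFDerivAt_Es hc θ x).differentiableAt, by simp, ?_⟩
    have h : fderiv ℝ (Es θ c) = fun x => D θ c x := by
      funext x
      exact (hasFDerivAt_Es hc θ x).fderiv
    rw [h]
    unfold D
    refine ContDiff.sum fun i _ => ?_
    exact ((ContinuousLinearMap.smulRightL ℝ (V n) ℂ)
      (ContinuousLinearMap.proj i)).contDiff.comp (ih (rd_dc hc θ i))

theorem rowA1 : RowA1 := by
  intro n θ c hc
  refine ⟨?_, fun i x => ?_⟩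
  · rw [contDiff_infty]
    exact fun m => contDiff_Es_nat θ m hc
  · unfold pd
    rw [(hasFDerivAt_Es hc θ x).fderiv, D_apply_single]
    rfl

/-! ## Products -/

/-- `(k, l) ↦ (k - l, l)`. -/
def sh : Ix n × Ix n ≃ Ix n × Ix n where
  toFun p := (p.1 - p.2, p.2)
  invFun p := (p.1 + p.2, p.2)
  left_inv p := by simp
  right_inv p := by simp

theorem summable_sh {c d : Ix n → ℂ} (hc : RD c) (hd : RD d) (m : ℕ) :
    Summable fun p : Ix n × Ix n =>
      (wt (p.1 - p.2) ^ m * ‖c (p.1 - p.2)‖) * (wt p.2 ^ m * ‖d p.2‖) := by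
  have h := (hc m).mul_of_nonneg (hd m) (fun k => by have := wt_pos k; positivity)
    (fun k => by have := wt_pos k; positivity)
  exact (sh (n := n)).summable_iff.2 h

theorem tsum_sh {c d : Ix n → ℂ} (hc : RD c) (hd : RD d) (m : ℕ) :
    ∑' k : Ix n, ∑' l : Ix n, (wt (k - l) ^ m * ‖c (k - l)‖) * (wt l ^ m * ‖d l‖)
      = nm m c * nm m d := by
  rw [← (summable_sh hc hd m).tsum_prod]
  have h := (hc m).mul_of_nonneg (hd m) (fun k => by have := wt_pos k; positivity)
    (fun k => by have := wt_pos k; positivity)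
  unfold nm
  rw [(hc m).tsum_mul_tsum (hd m) h]
  exact (sh (n := n)).tsum_eq
    (fun p : Ix n × Ix n => (wt p.1 ^ m * ‖c p.1‖) * (wt p.2 ^ m * ‖d p.2‖))

theorem summable_conv {c d : Ix n → ℂ} (hc : RD c) (hd : RD d) (k : Ix n) :
    Summable fun l => ‖c (k - l) * d l‖ := by
  have h := (summable_sh hc hd 0).prod_factor k
  simpa using h

theorem wt_mul_norm_cv_le {c d : Ix n → ℂ} (hc : RD c) (hd : RD d) (m : ℕ) (k : Ix n) :
    wt k ^ m * ‖cv c d k‖
      ≤ ∑' l : Ix n, (wt (k - l) ^ m * ‖c (k - l)‖) * (wt l ^ m * ‖d l‖) := by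
  have h1 : ‖cv c d k‖ ≤ ∑' l, ‖c (k - l) * d l‖ := norm_tsum_le_tsum_norm (summable_conv hc hd k)
  have hk := wt_pos k
  calc wt k ^ m * ‖cv c d k‖ ≤ wt k ^ m * ∑' l, ‖c (k - l) * d l‖ := by gcongr
    _ = ∑' l, wt k ^ m * ‖c (k - l) * d l‖ := (tsum_mul_left).symm
    _ ≤ _ := by
      refine Summable.tsum_le_tsum (fun l => ?_) ((summable_conv hc hd k).mul_left _)
        ((summable_sh hc hd m).prod_factor k)
      have h2 : wt k ^ m ≤ wt (k - l) ^ m * wt l ^ m := by
        rw [← mul_pow]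
        exact pow_le_pow_left₀ hk.le (wt_sub k l) m
      rw [norm_mul]
      calc wt k ^ m * (‖c (k - l)‖ * ‖d l‖)
          ≤ (wt (k - l) ^ m * wt l ^ m) * (‖c (k - l)‖ * ‖d l‖) := by gcongr
        _ = _ := by ring

theorem rd_cv {c d : Ix n → ℂ} (hc : RD c) (hd : RD d) : RD (cv c d) := fun m =>
  Summable.of_nonneg_of_le (fun k => by have := wt_pos k; positivity)
    (fun k => wt_mul_norm_cv_le hc hd m k) (summable_sh hc hd m).prod

theorem nm_cv_le {c d : Ix n → ℂ} (hc : RD c) (hd : RD d) (m : ℕ) :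
    nm m (cv c d) ≤ nm m c * nm m d := by
  rw [← tsum_sh hc hd m]
  exact Summable.tsum_le_tsum (fun k => wt_mul_norm_cv_le hc hd m k) (rd_cv hc hd m)
    (summable_sh hc hd m).prod

theorem Es_mul {c d : Ix n → ℂ} (hc : RD c) (hd : RD d) (θ θ' x : V n) :
    Es θ c x * Es θ' d x = Es (θ + θ') (cv c d) x := by
  have h1 := rd_summable_norm_term hc θ x
  have h2 := rd_summable_norm_term hd θ' x
  set F : Ix n → ℂ := fun k => c k * ex (fr θ k) x with hF
  set G : Ix n → ℂ := fun k => d k * ex (fr θ' k) x with hG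
  have h3 : Summable fun p : Ix n × Ix n => F p.1 * G p.2 :=
    summable_mul_of_summable_norm h1 h2
  have h4 : Summable fun p : Ix n × Ix n => F (p.1 - p.2) * G p.2 :=
    (sh (n := n)).summable_iff.2 h3
  have h5 : ∑' p : Ix n × Ix n, F (p.1 - p.2) * G p.2 = ∑' p : Ix n × Ix n, F p.1 * G p.2 :=
    (sh (n := n)).tsum_eq (fun p : Ix n × Ix n => F p.1 * G p.2)
  have h6 : Es θ c x * Es θ' d x = ∑' p : Ix n × Ix n, F p.1 * G p.2 :=
    tsum_mul_tsum_of_summable_norm h1 h2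
  rw [h6, ← h5, h4.tsum_prod]
  unfold Es
  refine tsum_congr fun k => ?_
  unfold cv
  rw [← tsum_mul_right]
  refine tsum_congr fun l => ?_
  have h7 : fr (θ + θ') k = fr θ (k - l) + fr θ' l := by
    funext j
    simp only [fr, Pi.add_apply, Pi.sub_apply]
    push_cast
    ring
  rw [h7, ex_add, hF, hG]
  ring

theorem rowA2 : RowA2 := by
  intro n θ θ' c d hc hd
  exact ⟨rd_cv hc hd, fun k => (summable_conv hc hd k).of_norm, fun x => Es_mul hc hd θ θ' x,
    fun m => nm_cv_le hc hd m⟩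

end Vale.Agent.P088.LR.H501
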