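import Vale.Agent.P088.H72.B.DefsE
import Vale.Agent.P088.H72.Norm

/-!
# P088, stage 2, row BOREL, first part: Borel's lemma along `{ρ = 0}` with smallness
-/

open MeasureTheory Set Filter
open scoped ContDiff Matrix Topology

noncomputable section

namespace Vale.Agent.P088.LR.H501B

open Vale.Agent.P088.LR Vale.Agent.P088.LR.B

variable {n : ℕ}

theorem cl_nonneg {k : ℕ} {A : ℝ} {f : V n → ℝ} (h : Cl k A f) : 0 ≤ A :=
  (norm_nonneg _).trans (h 0 (Nat.zero_le _) 0)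

theorem cl_le {k : ℕ} {A B : ℝ} {f : V n → ℝ} (h : Cl k A f) (hAB : A ≤ B) : Cl k B f :=
  fun l hl x => (h l hl x).trans hAB

theorem cl_ord {k l : ℕ} {A : ℝ} {f : V n → ℝ} (h : Cl k A f) (hl : l ≤ k) : Cl l A f :=
  fun i hi x => h i (hi.trans hl) x

theorem exists_cl {k : ℕ} {f : V n → ℝ} (hf : ContDiff ℝ ∞ f) (hc : HasCompactSupport f) :
    ∃ B : ℝ, 0 < B ∧ Cl k B f := by
  have h : ∀ l : ℕ, ∃ C, ∀ x, ‖iteratedFDeriv ℝ l f x‖ ≤ C := fun l =>
    (hf.continuous_iteratedFDeriv (by exact_mod_cast le_top)).bounded_above_of_compact_support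
      (hc.iteratedFDeriv l)
  choose C hC using h
  refine ⟨1 + ∑ l ∈ Finset.range (k + 1), |C l|, by positivity, fun l hl x => ?_⟩
  calc ‖iteratedFDeriv ℝ l f x‖ ≤ C l := hC l x
    _ ≤ |C l| := le_abs_self _
    _ ≤ ∑ l ∈ Finset.range (k + 1), |C l| :=
      Finset.single_le_sum (f := fun l => |C l|) (fun i _ => abs_nonneg _)
        (Finset.mem_range.mpr (by omega))
    _ ≤ _ := by linarith

theorem cl_mul {k : ℕ} {A B : ℝ} {f g : V n → ℝ} (hf : ContDiff ℝ ∞ f) (hg : ContDiff ℝ ∞ g)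
    (hA : Cl k A f) (hB : Cl k B g) : Cl k (2 ^ k * (A * B)) (fun x => f x * g x) := by
  intro l hl x
  have hA0 := cl_nonneg hA
  have hB0 := cl_nonneg hB
  have h1 := norm_iteratedFDeriv_mul_le (n := l) hf hg x (by exact_mod_cast le_top)
  refine h1.trans ?_
  calc ∑ i ∈ Finset.range (l + 1), (l.choose i : ℝ) * ‖iteratedFDeriv ℝ i f x‖ *
        ‖iteratedFDeriv ℝ (l - i) g x‖
      ≤ ∑ i ∈ Finset.range (l + 1), (l.choose i : ℝ) * (A * B) := by
        refine Finset.sum_le_sum fun i hi => ?_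
        have hi' : i ≤ l := by simpa [Nat.lt_succ_iff] using hi
        rw [mul_assoc]
        refine mul_le_mul_of_nonneg_left ?_ (by positivity)
        exact mul_le_mul (hA i (hi'.trans hl) x) (hB (l - i) (by omega) x) (norm_nonneg _) hA0
    _ = 2 ^ l * (A * B) := by
        rw [← Finset.sum_mul]
        congr 1
        exact_mod_cast Nat.sum_range_choose l
    _ ≤ 2 ^ k * (A * B) := by
        refine mul_le_mul_of_nonneg_right ?_ (by positivity)
        exact pow_le_pow_right₀ (by norm_num) hl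

theorem cl_add {k : ℕ} {A B : ℝ} {f g : V n → ℝ} (hf : ContDiff ℝ ∞ f) (hg : ContDiff ℝ ∞ g)
    (hA : Cl k A f) (hB : Cl k B g) : Cl k (A + B) (fun x => f x + g x) := by
  intro l hl x
  have h1 : (fun x => f x + g x) = f + g := rfl
  rw [h1, iteratedFDeriv_add_apply (hf.of_le (by exact_mod_cast le_top)).contDiffAt
    (hg.of_le (by exact_mod_cast le_top)).contDiffAt]
  exact (norm_add_le _ _).trans (add_le_add (hA l hl x) (hB l hl x))

theorem cl_sum {k : ℕ} {A : ℝ} {f : ℕ → V n → ℝ} (hf : ∀ m, ContDiff ℝ ∞ (f m))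
    (N : ℕ) (h : ∀ m < N, Cl k A (f m)) :
    Cl k (N * A) (fun x => ∑ m ∈ Finset.range N, f m x) := by
  induction N with
  | zero =>
    intro l hl x
    simp only [Finset.range_zero, Finset.sum_empty, Nat.cast_zero, zero_mul]
    have : iteratedFDeriv ℝ l (fun _ : V n => (0 : ℝ)) x = 0 := by
      rw [iteratedFDeriv_fun_zero]
      rfl
    rw [this, norm_zero]
  | succ N ih =>
    have h1 := cl_add (ContDiff.sum fun m _ => hf m) (hf N) (ih fun m hm => h m (by omega))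
      (h N (by omega))
    have h2 : (fun x => ∑ m ∈ Finset.range (N + 1), f m x) =
        fun x => (∑ m ∈ Finset.range N, f m x) + f N x := by
      funext x
      rw [Finset.sum_range_succ]
    rw [h2]
    have h3 : ((N + 1 : ℕ) : ℝ) * A = N * A + A := by push_cast; ring
    rw [h3]
    exact h1

/-! ## The cut-off of one variable -/

/-- A bump function on the line. -/
def bmp : ContDiffBump (0 : ℝ) := ⟨1 / 4, 1 / 2, by norm_num, by norm_num⟩

/-- The cut-off `χ`. -/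
def chi (σ : ℝ) : ℝ := bmp σ

theorem chi_smooth : ContDiff ℝ ∞ chi := bmp.contDiff

theorem chi_one {σ : ℝ} (h : |σ| ≤ 1 / 4) : chi σ = 1 := by
  refine bmp.one_of_mem_closedBall ?_
  rw [Metric.mem_closedBall, dist_zero_right, Real.norm_eq_abs]
  exact h

theorem chi_zero {σ : ℝ} (h : 1 / 2 ≤ |σ|) : chi σ = 0 := by
  refine bmp.zero_of_le_dist ?_
  rw [dist_zero_right, Real.norm_eq_abs]
  exact h

theorem chi_supp : HasCompactSupport chi := bmp.hasCompactSupport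

/-- `σ^p χ(σ)`. -/
def Kp (p : ℕ) (σ : ℝ) : ℝ := σ ^ p * chi σ

theorem Kp_smooth (p : ℕ) : ContDiff ℝ ∞ (Kp p) := (contDiff_id.pow p).mul chi_smooth

theorem Kp_bound (p l : ℕ) : ∃ C : ℝ, 0 < C ∧ ∀ i ≤ l, ∀ σ, ‖iteratedFDeriv ℝ i (Kp p) σ‖ ≤ C := by
  have hc : HasCompactSupport (Kp p) := chi_supp.mul_left
  have h : ∀ l : ℕ, ∃ C, ∀ x, ‖iteratedFDeriv ℝ l (Kp p) x‖ ≤ C := fun l =>
    ((Kp_smooth p).continuous_iteratedFDeriv
      (by exact_mod_cast le_top)).bounded_above_of_compact_support (hc.iteratedFDeriv l)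
  choose C hC using h
  refine ⟨1 + ∑ l ∈ Finset.range (l + 1), |C l|, by positivity, fun i hl x => ?_⟩
  calc ‖iteratedFDeriv ℝ i (Kp p) x‖ ≤ C i := hC i x
    _ ≤ |C i| := le_abs_self _
    _ ≤ ∑ l ∈ Finset.range (l + 1), |C l| :=
      Finset.single_le_sum (f := fun l => |C l|) (fun i _ => abs_nonneg _)
        (Finset.mem_range.mpr (by omega))
    _ ≤ _ := by linarith

/-- Division of `χ(σ/d) - 1` by powers of `σ`. -/
theorem divr {d : ℝ} (hd : 0 < d) (M : ℕ) : ∃ D : ℝ → ℝ, ContDiff ℝ ∞ D ∧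
    ∀ σ, chi (σ / d) - 1 = σ ^ M * D σ := by
  have hs : ContDiff ℝ ∞ fun σ => chi (σ / d) - 1 :=
    (chi_smooth.comp (contDiff_id.div_const d)).sub contDiff_const
  have h0 : ∀ σ : ℝ, |σ| < d / 4 → chi (σ / d) - 1 = 0 := by
    intro σ hσ
    rw [chi_one, sub_self]
    rw [abs_div, abs_of_pos hd, div_le_iff₀ hd]
    linarith
  refine ⟨fun σ => (chi (σ / d) - 1) / σ ^ M, ?_, fun σ => ?_⟩
  · rw [contDiff_iff_contDiffAt]
    intro σ
    by_cases hσ : σ = 0
    · subst hσ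
      have h1 : (fun σ : ℝ => (chi (σ / d) - 1) / σ ^ M) =ᶠ[𝓝 0] fun _ => 0 := by
        have h2 : ∀ᶠ σ : ℝ in 𝓝 0, |σ| < d / 4 := by
          have : Metric.ball (0 : ℝ) (d / 4) ∈ 𝓝 (0 : ℝ) := Metric.ball_mem_nhds _ (by positivity)
          filter_upwards [this] with σ hσ
          simpa [Real.norm_eq_abs] using hσ
        filter_upwards [h2] with σ hσ
        rw [h0 σ hσ, zero_div]
      exact contDiffAt_const.congr_of_eventuallyEq h1
    · exact hs.contDiffAt.div (contDiff_id.pow M).contDiffAt (pow_ne_zero M hσ)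
  · by_cases hσ : σ = 0
    · subst hσ
      have h1 : chi (0 / d) - 1 = 0 := h0 0 (by rw [abs_zero]; positivity)
      show chi (0 / d) - 1 = 0 ^ M * ((chi (0 / d) - 1) / 0 ^ M)
      rw [h1, zero_div, mul_zero]
    · field_simp

/-! ## The cut-off terms -/

theorem core_compact : IsCompact (core n) := by
  have h1 : core n = Set.Icc (fun _ => (1 / 4 : ℝ)) (fun _ => (3 / 4 : ℝ)) := by
    ext x
    simp only [core, mem_ofPred_eq, mem_Icc, Pi.le_def]
    exact ⟨fun h => ⟨fun j => (h j).1, fun j => (h j).2⟩, fun h j => ⟨h.1 j, h.2 j⟩⟩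
  rw [h1]
  exact isCompact_Icc

theorem supp_of_off {f : V n → ℝ} (h : ∀ x ∉ core n, f x = 0) : HasCompactSupport f :=
  HasCompactSupport.intro core_compact h

section dom

variable {ρ : V n → ℝ} (hρ : Dom ρ)

include hρ

theorem rho_bound (l : ℕ) : ∃ R : ℝ, 1 ≤ R ∧ ∀ i, 1 ≤ i → i ≤ l → ∀ x,
    ‖iteratedFDeriv ℝ i ρ x‖ ≤ R := by
  have hc : HasCompactSupport fun x => ρ x + 1 := supp_of_off fun x hx => by
    rw [hρ.off x hx]
    norm_num
  obtain ⟨B, hB, h⟩ := exists_cl (k := l) (hρ.sm.add contDiff_const) hc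
  refine ⟨1 + B, by linarith, fun i h1 hi x => ?_⟩
  have h2 := h i hi x
  have h3 : (fun x => ρ x + 1) = ρ + fun _ => (1 : ℝ) := rfl
  rw [h3, iteratedFDeriv_add_apply (hρ.sm.of_le (by exact_mod_cast le_top)).contDiffAt
    contDiff_const.contDiffAt, iteratedFDeriv_const_of_ne (by omega)] at h2
  simp only [Pi.zero_apply, add_zero] at h2
  linarith

/-- `ρ^p χ(ρ/d)`. -/
def cut (ρ : V n → ℝ) (p : ℕ) (d : ℝ) (x : V n) : ℝ := ρ x ^ p * chi (ρ x / d)

omit hρ in
theorem cut_smooth (hs : ContDiff ℝ ∞ ρ) (p : ℕ) (d : ℝ) : ContDiff ℝ ∞ (cut ρ p d) :=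
  (hs.pow p).mul (chi_smooth.comp (hs.div_const d))

theorem cut_off {p : ℕ} {d : ℝ} (h0 : 0 < d) (h1 : d ≤ 1) {x : V n} (hx : x ∉ core n) :
    cut ρ p d x = 0 := by
  unfold cut
  rw [hρ.off x hx, chi_zero, mul_zero]
  rw [abs_div, abs_neg, abs_one, abs_of_pos h0, div_le_div_iff₀ (by norm_num) h0]
  linarith

theorem cut_bound {p l : ℕ} (hlp : l < p) : ∃ C : ℝ, 0 < C ∧ ∀ d, 0 < d → d ≤ 1 →
    Cl l (C * d) (cut ρ p d) := by
  obtain ⟨C0, hC0, hK⟩ := Kp_bound p l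
  obtain ⟨R, hR, hρb⟩ := rho_bound hρ l
  refine ⟨l.factorial * C0 * R ^ l, by positivity, fun d hd hd1 i hi x => ?_⟩
  have hR0 : 0 < R := by linarith
  have hRd : 1 ≤ R / d := by rw [le_div_iff₀ hd]; linarith
  have e1 : cut ρ p d = d ^ p • ((Kp p) ∘ (d⁻¹ • ρ)) := by
    funext y
    simp only [cut, Pi.smul_apply, Function.comp_apply, Kp, smul_eq_mul]
    rw [mul_pow, inv_pow, div_eq_inv_mul]
    field_simp
  have hsc : ContDiff ℝ ∞ (d⁻¹ • ρ) := hρ.sm.const_smul d⁻¹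
  have h1 : ‖iteratedFDeriv ℝ i ((Kp p) ∘ (d⁻¹ • ρ)) x‖ ≤ i.factorial * C0 * (R / d) ^ i := by
    refine norm_iteratedFDeriv_comp_le (Kp_smooth p) hsc (by exact_mod_cast le_top) x
      (fun j hj => hK j (hj.trans hi) _) fun j hj1 hj => ?_
    rw [iteratedFDeriv_const_smul_apply (hρ.sm.of_le (by exact_mod_cast le_top)).contDiffAt,
      norm_smul, norm_inv, Real.norm_eq_abs, abs_of_pos hd]
    calc d⁻¹ * ‖iteratedFDeriv ℝ j ρ x‖ ≤ d⁻¹ * R :=
          mul_le_mul_of_nonneg_left (hρb j hj1 (hj.trans hi) x) (by positivity)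
      _ = R / d := by ring
      _ = (R / d) ^ 1 := (pow_one _).symm
      _ ≤ (R / d) ^ j := pow_le_pow_right₀ hRd hj1
  rw [e1, iteratedFDeriv_const_smul_apply (((Kp_smooth p).comp hsc).of_le
    (by exact_mod_cast le_top)).contDiffAt, norm_smul, norm_pow, Real.norm_eq_abs, abs_of_pos hd]
  calc d ^ p * ‖iteratedFDeriv ℝ i ((Kp p) ∘ (d⁻¹ • ρ)) x‖
      ≤ d ^ p * (i.factorial * C0 * (R / d) ^ i) := mul_le_mul_of_nonneg_left h1 (by positivity)
    _ ≤ d ^ p * (l.factorial * C0 * (R / d) ^ l) := by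
        refine mul_le_mul_of_nonneg_left ?_ (by positivity)
        have h2 : (i.factorial : ℝ) ≤ l.factorial := by exact_mod_cast Nat.factorial_le hi
        have h3 : (R / d) ^ i ≤ (R / d) ^ l := pow_le_pow_right₀ hRd hi
        gcongr
    _ = l.factorial * C0 * R ^ l * d ^ (p - l) := by
        obtain ⟨q, rfl⟩ : ∃ q, p = q + l := ⟨p - l, by omega⟩
        rw [Nat.add_sub_cancel, pow_add, div_pow]
        field_simp
    _ ≤ l.factorial * C0 * R ^ l * d := by
        refine mul_le_mul_of_nonneg_left ?_ (by positivity)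
        calc d ^ (p - l) ≤ d ^ 1 := pow_le_pow_of_le_one hd.le hd1 (by omega)
          _ = d := pow_one d

omit hρ in
theorem exists_theta (n : ℕ) : ∃ θ : V n → ℝ, ContDiff ℝ ∞ θ ∧ (∀ x ∈ core n, θ x = 1) ∧
    HasCompactSupport θ := by
  let f : ContDiffBump (0 : V n) := ⟨1, 2, by norm_num, by norm_num⟩
  refine ⟨f, f.contDiff, fun x hx => f.one_of_mem_closedBall ?_, f.hasCompactSupport⟩
  rw [Metric.mem_closedBall, dist_zero_right, pi_norm_le_iff_of_nonneg (by norm_num)]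
  intro j
  rw [Real.norm_eq_abs, abs_le]
  constructor <;> linarith [(hx j).1, (hx j).2]

theorem term_bound {p l : ℕ} (hlp : l < p) {a : V n → ℝ} (ha : ContDiff ℝ ∞ a) :
    ∃ C : ℝ, 0 < C ∧ ∀ d, 0 < d → d ≤ 1 → Cl l (C * d) (fun x => cut ρ p d x * a x) := by
  obtain ⟨C, hC, h1⟩ := cut_bound hρ hlp
  obtain ⟨θ, hθ, hθ1, hθc⟩ := exists_theta n
  obtain ⟨A, hA, h2⟩ := exists_cl (k := l) (hθ.mul ha) hθc.mul_right
  refine ⟨2 ^ l * (C * A), by positivity, fun d hd hd1 => ?_⟩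
  have h3 := cl_mul (cut_smooth hρ.sm p d) (hθ.mul ha) (h1 d hd hd1) h2
  have e1 : (fun x => cut ρ p d x * a x) = fun x => cut ρ p d x * (θ x * a x) := by
    funext x
    by_cases hx : x ∈ core n
    · rw [hθ1 x hx, one_mul]
    · rw [cut_off hρ hd hd1 hx, zero_mul, zero_mul]
  rw [e1]
  refine cl_le h3 (le_of_eq ?_)
  ring

theorem terms_bound (m : ℕ) {a : V n → ℝ} (ha : ContDiff ℝ ∞ a) :
    ∃ C : ℝ, 0 < C ∧ ∀ i l, i + l < m → ∀ d, 0 < d → d ≤ 1 →
      Cl l (C * d) (fun x => cut ρ (m - i) d x * a x) := by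
  have h : ∀ i : ℕ, ∃ C : ℝ, 0 < C ∧ (i < m → ∀ d, 0 < d → d ≤ 1 →
      Cl (m - i - 1) (C * d) (fun x => cut ρ (m - i) d x * a x)) := by
    intro i
    by_cases hi : i < m
    · obtain ⟨C, hC, h1⟩ := term_bound hρ (p := m - i) (l := m - i - 1) (by omega) ha
      exact ⟨C, hC, fun _ => h1⟩
    · exact ⟨1, one_pos, fun h => absurd h hi⟩
  choose C hC h1 using h
  refine ⟨1 + ∑ i ∈ Finset.range m, C i, by
    have : 0 ≤ ∑ i ∈ Finset.range m, C i := Finset.sum_nonneg fun i _ => (hC i).le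
    linarith, fun i l hil d hd hd1 => ?_⟩
  have h2 := cl_ord (h1 i (by omega) d hd hd1) (show l ≤ m - i - 1 by omega)
  refine cl_le h2 (mul_le_mul_of_nonneg_right ?_ hd.le)
  have h3 : C i ≤ ∑ i ∈ Finset.range m, C i :=
    Finset.single_le_sum (f := C) (fun i _ => (hC i).le) (Finset.mem_range.mpr (by omega))
  linarith

omit hρ in
/-- The tail of the series. -/
theorem tail_cl {k : ℕ} {η : ℝ} (hη : 0 ≤ η) {f : ℕ → V n → ℝ} (hf : ∀ m, ContDiff ℝ ∞ (f m))
    (h : ∀ m, k < m → ∀ l, l < m → Cl l (η * (1 / 2) ^ m) (f m)) :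
    ContDiff ℝ ∞ (fun x => ∑' m, f (m + (k + 1)) x) ∧
      Cl k η (fun x => ∑' m, f (m + (k + 1)) x) := by
  have hgeo0 : Summable fun m : ℕ => η * (1 / 2 : ℝ) ^ m :=
    (summable_geometric_of_lt_one (by norm_num) (by norm_num)).mul_left _
  have hgeo : Summable fun m : ℕ => η * (1 / 2 : ℝ) ^ (m + (k + 1)) :=
    (summable_nat_add_iff (f := fun m : ℕ => η * (1 / 2 : ℝ) ^ m) (k + 1)).2 hgeo0
  have hb : ∀ j ≤ k, ∀ m x, ‖iteratedFDeriv ℝ j (f (m + (k + 1))) x‖ ≤
      η * (1 / 2) ^ (m + (k + 1)) := fun j hj m x =>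
    h (m + (k + 1)) (by omega) j (by omega) j le_rfl x
  have htot : ∑' m : ℕ, η * (1 / 2 : ℝ) ^ (m + (k + 1)) ≤ η := by
    have h1 : ∀ m : ℕ, η * (1 / 2 : ℝ) ^ (m + (k + 1)) =
        η * (1 / 2) ^ (k + 1) * (1 / 2) ^ m := fun m => by ring
    simp_rw [h1]
    rw [tsum_mul_left, tsum_geometric_of_lt_one (by norm_num) (by norm_num)]
    have h2 : (1 / 2 : ℝ) ^ (k + 1) ≤ 1 / 2 := by
      calc (1 / 2 : ℝ) ^ (k + 1) ≤ (1 / 2) ^ 1 :=
            pow_le_pow_of_le_one (by norm_num) (by norm_num) (by omega)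
        _ = 1 / 2 := pow_one _
    calc η * (1 / 2) ^ (k + 1) * (1 - 1 / 2)⁻¹ = 2 * η * (1 / 2) ^ (k + 1) := by ring
      _ ≤ 2 * η * (1 / 2) := mul_le_mul_of_nonneg_left h2 (by linarith)
      _ = η := by ring
  constructor
  · refine contDiff_tsum_of_eventually (v := fun _ m => η * (1 / 2) ^ (m + (k + 1)))
      (fun m => hf _) (fun j _ => hgeo) (fun j _ => ?_)
    rw [Nat.cofinite_eq_atTop]
    filter_upwards [eventually_gt_atTop j] with m hm x
    exact h (m + (k + 1)) (by omega) j (by omega) j le_rfl x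
  · intro j hj x
    have h1 := iteratedFDeriv_tsum_apply (𝕜 := ℝ) (N := (k : ℕ∞))
      (f := fun m => f (m + (k + 1)))
      (v := fun _ m => η * (1 / 2) ^ (m + (k + 1)))
      (fun m => (hf _).of_le (by exact_mod_cast le_top)) (fun j _ => hgeo)
      (fun j m x hj => hb j (by exact_mod_cast hj) m x) (k := j) (by exact_mod_cast hj) x
    rw [h1]
    exact (tsum_of_norm_bounded hgeo.hasSum fun m => hb j hj m x).trans htot

omit hρ in
/-- Smoothness of the shifted series. -/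
theorem shift_smooth {k : ℕ} {η : ℝ} {a : ℕ → V n → ℝ} {d : ℕ → ℝ} (hs : ContDiff ℝ ∞ ρ)
    (ha : ∀ m, ContDiff ℝ ∞ (a m))
    (h : ∀ m, k < m → ∀ i l, i + l < m →
      Cl l (η * (1 / 2) ^ m) (fun x => cut ρ (m - i) (d m) x * a m x)) (M : ℕ) :
    ContDiff ℝ ∞ fun x => ∑' m, cut ρ m (d (m + M)) x * a (m + M) x := by
  refine contDiff_tsum_of_eventually (v := fun _ m => η * (1 / 2) ^ (m + M))
    (fun m => (cut_smooth hs _ _).mul (ha _)) (fun j _ => ?_) (fun j _ => ?_)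
  · have h1 : Summable fun m : ℕ => η * (1 / 2 : ℝ) ^ m :=
      (summable_geometric_of_lt_one (by norm_num) (by norm_num)).mul_left _
    exact (summable_nat_add_iff M).2 h1
  · rw [Nat.cofinite_eq_atTop]
    filter_upwards [eventually_gt_atTop (max k j)] with m hm x
    have hk : k < m := lt_of_le_of_lt (le_max_left _ _) hm
    have hj : j < m := lt_of_le_of_lt (le_max_right _ _) hm
    have h1 := h (m + M) (by omega) M j (by omega) j le_rfl x
    rw [Nat.add_sub_cancel] at h1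
    exact h1

omit hρ in
theorem summable_terms {k : ℕ} {η : ℝ} {f : ℕ → V n → ℝ}
    (h : ∀ m, k < m → ∀ l, l < m → Cl l (η * (1 / 2) ^ m) (f m)) (x : V n) :
    Summable fun m => f m x := by
  refine Summable.of_norm_bounded_eventually_nat (g := fun m => η * (1 / 2) ^ m)
    ((summable_geometric_of_lt_one (by norm_num) (by norm_num)).mul_left _) ?_
  filter_upwards [eventually_gt_atTop k] with m hm
  have h1 := h m hm 0 (by omega) 0 le_rfl x
  rw [norm_iteratedFDeriv_zero] at h1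
  exact h1

/-- The radii. -/
theorem exists_radii (k : ℕ) {η : ℝ} (hη : 0 < η) {a : ℕ → V n → ℝ}
    (ha : ∀ m, ContDiff ℝ ∞ (a m)) : ∃ d : ℕ → ℝ, (∀ m, 0 < d m) ∧ (∀ m ≤ k, d m = 1) ∧
      ∀ m, k < m → ∀ i l, i + l < m →
        Cl l (η * (1 / 2) ^ m) (fun x => cut ρ (m - i) (d m) x * a m x) := by
  have hC : ∀ m, ∃ C : ℝ, 0 < C ∧ ∀ i l, i + l < m → ∀ d, 0 < d → d ≤ 1 →
      Cl l (C * d) (fun x => cut ρ (m - i) d x * a m x) := fun m => terms_bound hρ m (ha m)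
  choose C hC0 hC1 using hC
  refine ⟨fun m => if m ≤ k then 1 else min 1 (η * (1 / 2) ^ m / C m), fun m => ?_, fun m hm => ?_,
    fun m hm i l hil => ?_⟩
  · show 0 < if m ≤ k then (1 : ℝ) else min 1 (η * (1 / 2) ^ m / C m)
    split_ifs
    · exact one_pos
    · have := hC0 m
      positivity
  · show (if m ≤ k then (1 : ℝ) else min 1 (η * (1 / 2) ^ m / C m)) = 1
    rw [if_pos hm]
  · have e : (if m ≤ k then (1 : ℝ) else min 1 (η * (1 / 2) ^ m / C m)) =
        min 1 (η * (1 / 2) ^ m / C m) := if_neg (by omega)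
    show Cl l (η * (1 / 2) ^ m) (fun x => cut ρ (m - i)
      (if m ≤ k then (1 : ℝ) else min 1 (η * (1 / 2) ^ m / C m)) x * a m x)
    rw [e]
    have hp : 0 < η * (1 / 2) ^ m / C m := by
      have := hC0 m
      positivity
    refine cl_le (hC1 m i l hil _ (lt_min one_pos hp) (min_le_left _ _)) ?_
    calc C m * min 1 (η * (1 / 2) ^ m / C m) ≤ C m * (η * (1 / 2) ^ m / C m) :=
          mul_le_mul_of_nonneg_left (min_le_right _ _) (hC0 m).le
      _ = η * (1 / 2) ^ m := by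
          have := (hC0 m).ne'
          field_simp

/-- **Borel's lemma along `{ρ = 0}`, with smallness.** -/
theorem borel (k : ℕ) {ε : ℝ} (hε : 0 < ε) : ∃ δ > 0, ∀ a : ℕ → V n → ℝ,
    (∀ m, ContDiff ℝ ∞ (a m)) → (∀ m ≤ k, Cl k δ (a m)) → ∃ u : V n → ℝ, ContDiff ℝ ∞ u ∧
      Cl k ε u ∧ ∀ M : ℕ, ∃ h : V n → ℝ, ContDiff ℝ ∞ h ∧
        ∀ x, u x = (∑ m ∈ Finset.range M, ρ x ^ m * a m x) + ρ x ^ M * h x := by
  -- bounds for the first terms
  have hB : ∀ m : ℕ, ∃ B : ℝ, 0 < B ∧ Cl k B (cut ρ m 1) := fun m =>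
    exists_cl (cut_smooth hρ.sm m 1) (supp_of_off fun x hx => cut_off hρ one_pos le_rfl hx)
  choose B hB0 hB1 using hB
  obtain ⟨Bs, hBs0, hBs⟩ : ∃ Bs : ℝ, 0 < Bs ∧ ∀ m < k + 1, B m ≤ Bs := by
    refine ⟨1 + ∑ m ∈ Finset.range (k + 1), B m, ?_, fun m hm => ?_⟩
    · have : 0 ≤ ∑ m ∈ Finset.range (k + 1), B m := Finset.sum_nonneg fun i _ => (hB0 i).le
      linarith
    · have : B m ≤ ∑ m ∈ Finset.range (k + 1), B m :=
        Finset.single_le_sum (f := B) (fun i _ => (hB0 i).le) (Finset.mem_range.mpr hm)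
      linarith
  refine ⟨ε / (2 * (k + 1) * 2 ^ k * Bs), by positivity, fun a ha hak => ?_⟩
  obtain ⟨d, hd0, hd1, hsmall⟩ := exists_radii hρ k (half_pos hε) ha
  have hfs : ∀ m, ContDiff ℝ ∞ (fun x => cut ρ m (d m) x * a m x) := fun m =>
    (cut_smooth hρ.sm _ _).mul (ha m)
  have hsm0 : ∀ m, k < m → ∀ l, l < m →
      Cl l (ε / 2 * (1 / 2) ^ m) (fun x => cut ρ m (d m) x * a m x) := fun m hm l hl =>
    hsmall m hm 0 l (by omega)
  have hsumm := fun x => summable_terms (n := n) (f := fun m x => cut ρ m (d m) x * a m x) hsm0 x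
  have hS := shift_smooth (ρ := ρ) (d := d) hρ.sm ha hsmall
  have hdec : ∀ M x, ∑' m, cut ρ m (d m) x * a m x =
      (∑ m ∈ Finset.range M, cut ρ m (d m) x * a m x) +
      ρ x ^ M * ∑' m, cut ρ m (d (m + M)) x * a (m + M) x := by
    intro M x
    rw [← (hsumm x).sum_add_tsum_nat_add M, ← tsum_mul_left]
    congr 1
    refine tsum_congr fun m => ?_
    simp only [cut]
    ring
  obtain ⟨ht1, ht2⟩ := tail_cl (k := k) (half_pos hε).le hfs hsm0
  refine ⟨fun x => ∑' m, cut ρ m (d m) x * a m x, hS 0, ?_, fun M => ?_⟩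
  · -- smallness
    have e1 : (fun x => ∑' m, cut ρ m (d m) x * a m x) = fun x =>
        (∑ m ∈ Finset.range (k + 1), cut ρ m (d m) x * a m x) +
        ∑' m, cut ρ (m + (k + 1)) (d (m + (k + 1))) x * a (m + (k + 1)) x := by
      funext x
      exact ((hsumm x).sum_add_tsum_nat_add (k + 1)).symm
    have hhead : Cl k (ε / 2) (fun x => ∑ m ∈ Finset.range (k + 1), cut ρ m (d m) x * a m x) := by
      have h1 := cl_sum (k := k) (A := 2 ^ k * (Bs * (ε / (2 * (k + 1) * 2 ^ k * Bs)))) hfs (k + 1)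
        (fun m hm => by
          have h3 := cl_mul (cut_smooth hρ.sm m 1) (ha m) (hB1 m) (hak m (by omega))
          rw [hd1 m (by omega)]
          refine cl_le h3 ?_
          have h5 := hBs m hm
          gcongr)
      refine cl_le h1 (le_of_eq ?_)
      push_cast
      field_simp
    rw [e1]
    have h2 := cl_add (ContDiff.sum fun m _ => hfs m) ht1 hhead ht2
    refine cl_le h2 (le_of_eq ?_)
    ring
  · -- division
    have hD : ∀ m, ∃ D : ℝ → ℝ, ContDiff ℝ ∞ D ∧ ∀ σ, chi (σ / d m) - 1 = σ ^ M * D σ := fun m =>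
      divr (hd0 m) M
    choose D hDs hD1 using hD
    refine ⟨fun x => (∑ m ∈ Finset.range M, ρ x ^ m * D m (ρ x) * a m x) +
      ∑' m, cut ρ m (d (m + M)) x * a (m + M) x, ?_, fun x => ?_⟩
    · refine ContDiff.add (ContDiff.sum fun m _ => ?_) (hS M)
      exact ((hρ.sm.pow m).mul ((hDs m).comp hρ.sm)).mul (ha m)
    · show ∑' m, cut ρ m (d m) x * a m x = _
      rw [hdec M x, mul_add, ← add_assoc]
      congr 1
      rw [Finset.mul_sum, ← Finset.sum_add_distrib]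
      refine Finset.sum_congr rfl fun m _ => ?_
      simp only [cut]
      have h1 := hD1 m (ρ x)
      have h2 : chi (ρ x / d m) = 1 + ρ x ^ M * D m (ρ x) := by linarith
      rw [h2]
      ring

end dom

end Vale.Agent.P088.LR.H501B
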