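import Vale.Agent.P088.H501.Borel
import Vale.Agent.P088.H833.Rec

/-!
# P088, stage 2, row BOREL: formal harmonic coordinates of infinite order at the boundary
-/

open MeasureTheory Set Filter
open scoped ContDiff Matrix Topology

noncomputable section

namespace Vale.Agent.P088.LR.H501B

open Vale.Agent.P088.LR Vale.Agent.P088.LR.B Vale.Agent.P088.H833

variable {n : ℕ}

theorem cd_dr {s : MF n} (hs : SmM s) {u : V n → ℝ} (hu : ContDiff ℝ ∞ u) :
    ContDiff ℝ ∞ (dr s u) :=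
  ContDiff.sum fun i _ => cd_pd (cd_fl hs hu i) i

theorem cd_gr {s : MF n} (hs : SmM s) {u v : V n → ℝ} (hu : ContDiff ℝ ∞ u)
    (hv : ContDiff ℝ ∞ v) : ContDiff ℝ ∞ (gr s u v) :=
  ContDiff.sum fun i _ => ContDiff.sum fun j _ => ((hs i j).mul (cd_pd hu i)).mul (cd_pd hv j)

/-- The rest after `m + 2` terms is `O(ρ^m)`. -/
theorem dr_rest {s : MF n} (hs : SmM s) {ρ h : V n → ℝ} (hρ : ContDiff ℝ ∞ ρ)
    (hh : ContDiff ℝ ∞ h) (m : ℕ) : ∃ F : V n → ℝ, ContDiff ℝ ∞ F ∧
      ∀ x, dr s (fun y => ρ y ^ (m + 2) * h y) x = ρ x ^ m * F x := by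
  refine ⟨fun x => ρ x ^ 2 * dr s h x + h x * (((m : ℝ) + 2) * ((m : ℝ) + 1) * gr s ρ ρ x +
    ((m : ℝ) + 2) * (ρ x * dr s ρ x)) + ((m : ℝ) + 2) * (ρ x * (gr s ρ h x + gr s h ρ x)),
    ?_, fun x => ?_⟩
  · have h1 := cd_dr hs hh
    have h2 := cd_dr hs hρ
    have h3 := cd_gr hs hρ hρ
    have h4 := cd_gr hs hρ hh
    have h5 := cd_gr hs hh hρ
    exact (((hρ.pow 2).mul h1).add (hh.mul ((contDiff_const.mul h3).add
      (contDiff_const.mul (hρ.mul h2))))).add (contDiff_const.mul (hρ.mul (h4.add h5)))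
  · rw [dr_mul hs (hρ.pow (m + 2)) hh, dr_pow hs hρ m x]
    have h1 := gr_pow (s := s) (v := h) hρ (m + 1) x
    have h2 := gr_pow' (s := s) (v := h) hρ (m + 1) x
    have e : (fun y => ρ y ^ (m + 2)) = fun y => ρ y ^ (m + 1 + 1) := rfl
    rw [e, h1, h2]
    push_cast
    ring

/-- **Row BOREL.** -/
theorem rowBOREL : RowBOREL := by
  intro n ρ hD k ε hε
  obtain ⟨δ, hδ, hB⟩ := borel hD k hε
  obtain ⟨K, δ', hδ', hR⟩ := rec_all ρ hD k δ hδ
  refine ⟨K, δ', hδ', fun s hs hsy hcl => ?_⟩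
  choose c hc hck hc0 hc1 hE using hR s hs hsy hcl
  choose u hu huk hud using fun a => hB (c a) (hc a) (hck a)
  have hρ := hD.sm
  have hya : ∀ a, ContDiff ℝ ∞ (fun y : V n => y a) := fun a => contDiff_apply ℝ ℝ a
  refine ⟨fun x a => u a x, contDiff_pi.2 hu, fun l hl x =>
    H72.iter_pi_le (contDiff_pi.2 hu) l x hε.le fun a => huk a l hl x, fun x hx => ?_,
    fun a x hx => ?_, fun a m => ?_⟩
  · funext a
    obtain ⟨h, _, h1⟩ := hud a 1
    show u a x = 0
    rw [h1 x, Finset.sum_range_one, hc0 a x, hx]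
    simp
  · obtain ⟨h, hh, h1⟩ := hud a 2
    have e : (fun y : V n => y a + u a y) =
        fun y => y a + (ρ y * c a 1 y + ρ y * (ρ y * h y)) := by
      funext y
      rw [h1 y, Finset.sum_range_succ, Finset.sum_range_one, hc0 a y]
      ring
    have e2 : ∀ i, pd i (fun y : V n => y a + u a y) x = dl i a + c a 1 x * pd i ρ x := by
      intro i
      rw [e, pd_add' (hya a) ((hρ.mul (hc a 1)).add (hρ.mul (hρ.mul hh))),
        pd_add' (hρ.mul (hc a 1)) (hρ.mul (hρ.mul hh)), pd_mul' hρ (hc a 1),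
        pd_mul' hρ (hρ.mul hh), pd_coord, hx]
      ring
    rw [← hc1 a x hx]
    have e3 : fl s ρ a x = ∑ i, pd i ρ x * s x i a := by
      show ∑ j, s x a j * pd j ρ x = _
      refine Finset.sum_congr rfl fun j _ => ?_
      have h2 : s x j a = s x a j := (hsy x).apply a j
      rw [h2, mul_comm]
    have e4 : ∑ i, dl i a * fl s ρ i x = fl s ρ a x := by
      rw [Finset.sum_eq_single a]
      · rw [dl, Matrix.one_apply_eq, one_mul]
      · intro j _ hj
        rw [dl, Matrix.one_apply_ne hj, zero_mul]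
      · intro h; exact absurd (Finset.mem_univ _) h
    show gr s (fun y : V n => y a + u a y) ρ x = _
    rw [gr_eq, gr_eq, ← e3, ← e4, Finset.sum_mul, ← Finset.sum_add_distrib]
    refine Finset.sum_congr rfl fun i _ => ?_
    rw [e2 i]
    ring
  · obtain ⟨h, hh, h1⟩ := hud a (m + 2)
    obtain ⟨F, hF, hF1⟩ := dr_rest hs hρ hh m
    obtain ⟨r, hr, E, hEs, hE1⟩ := hE a m
    refine ⟨r, hr, fun x => E x + F x, hEs.add hF, fun x hx => ?_⟩
    have e : (fun y : V n => y a + u a y) =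
        fun y => (y a + ∑ i ∈ Finset.range (m + 2), ρ y ^ i * c a i y) + ρ y ^ (m + 2) * h y := by
      funext y
      rw [h1 y, add_assoc]
    show dr s (fun y : V n => y a + u a y) x = _
    rw [e, dr_add hs ((hya a).add (ContDiff.sum fun i _ => (hρ.pow i).mul (hc a i)))
      ((hρ.pow _).mul hh), hE1 x hx, hF1 x]
    ring

end Vale.Agent.P088.LR.H501B

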