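import Vale.Agent.P088.H501.EBorel
import Vale.Agent.P088.H72.X.Bor
import Vale.Agent.P088.H198.E.Defs

/-!
# P088, theorem E, row E_BOR: formal harmonic coordinates, near the identity in `C^1`, bounded in `C^k`
-/

open MeasureTheory Set Filter Topology
open scoped ContDiff Matrix

noncomputable section

namespace Vale.Agent.P088.LR.E.H501

open Vale.Agent.P088.LR Vale.Agent.P088.LR.B Vale.Agent.P088.LR.CF Vale.Agent.P088.H833
  Vale.Agent.P088.H833.RC Vale.Agent.P088.LR.H501B Vale.Agent.P088.LR.BY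

variable {n : ℕ}

/-! ## The filter of bounded tensors -/

/-- Smooth tensors. -/
abbrev Tm (n : ℕ) := {s : MF n // SmM s}

/-- Bounded of order `K`. -/
def Bk (B : ℕ → ℝ) (K : ℕ) (s : Tm n) : Prop := ∀ i j, Cb K B (fun x => s.1 x i j)

theorem Bk.mono {B : ℕ → ℝ} {K K' : ℕ} (h : K ≤ K') {s : Tm n} (hs : Bk B K' s) : Bk B K s :=
  fun i j l hl x => hs i j l (hl.trans h) x

/-- The filter. -/
def Fb (B : ℕ → ℝ) : Filter (Tm n) where
  sets := {S | ∃ K : ℕ, ∀ t, Bk B K t → t ∈ S}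
  univ_sets := ⟨0, fun _ _ => mem_univ _⟩
  sets_of_superset := fun ⟨m, h⟩ hST => ⟨m, fun s hs => hST (h s hs)⟩
  inter_sets := fun ⟨m, h⟩ ⟨m', h'⟩ => ⟨max m m', fun s hs =>
    ⟨h s (hs.mono (le_max_left _ _)), h' s (hs.mono (le_max_right _ _))⟩⟩

theorem evb_iff {B : ℕ → ℝ} {P : Tm n → Prop} :
    (∀ᶠ t in Fb B, P t) ↔ ∃ K : ℕ, ∀ t, Bk B K t → P t := Iff.rfl

theorem bo_mat {B : ℕ → ℝ} (i j : Fin n) : Bo (Fb B) (fun (t : Tm n) x => t.1 x i j) := by
  refine ⟨fun t => t.2 i j, fun k => ⟨∑ l ∈ Finset.range (k + 1), |B l|, evb_iff.2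
    ⟨k, fun t ht l hl x => (ht i j l hl x).trans ((le_abs_self _).trans ?_)⟩⟩⟩
  exact Finset.single_le_sum (f := fun l => |B l|) (fun _ _ => abs_nonneg _)
    (Finset.mem_range.2 (by omega))

/-- One sequence of bounds. -/
theorem bo_seq {ι : Type} {F₀ : Filter ι} {F : ι → V n → ℝ} (h : Bo F₀ F) :
    ∃ C : ℕ → ℝ, ∀ K, ∀ᶠ s in F₀, Cb K C (F s) := by
  choose C hC using h.bd
  refine ⟨C, fun K => ?_⟩
  have h1 : ∀ᶠ s in F₀, ∀ l ∈ Finset.range (K + 1), Cl l (C l) (F s) :=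
    (Finset.range (K + 1)).eventually_all.2 fun l _ => hC l
  filter_upwards [h1] with s hs
  intro l hl x
  exact hs l (Finset.mem_range.2 (by omega)) l le_rfl x

theorem cb_le {K : ℕ} {B C : ℕ → ℝ} {f : V n → ℝ} (h : Cb K B f) (hBC : ∀ l, B l ≤ C l) :
    Cb K C f := fun l hl x => (h l hl x).trans (hBC l)

/-! ## The data of the identity -/

/-- Defect of the conormal datum. -/
def fd (ρ σ : V n → ℝ) (a : Fin n) (s : MF n) (x : V n) : ℝ :=
  σ x * pd a ρ x + -1 * ∑ j, s x a j * pd j ρ x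

/-- Defect of the equation. -/
def gd (a : Fin n) (s : MF n) (x : V n) : ℝ := ∑ i, pd i (fun y => s y i a) x

theorem gr_coord {ρ : V n → ℝ} (s : MF n) (a : Fin n) (x : V n) :
    gr s (fun y => y a) ρ x = ∑ j, s x a j * pd j ρ x := by
  rw [gr_eq, Finset.sum_eq_single a]
  · rw [pd_coord, dl, Matrix.one_apply_eq, one_mul]
    rfl
  · intro j _ hj
    rw [pd_coord, dl, Matrix.one_apply_ne hj, zero_mul]
  · intro h; exact absurd (Finset.mem_univ _) h

theorem dr_coord (s : MF n) (a : Fin n) (x : V n) : dr s (fun y => y a) x = gd a s x := by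
  unfold dr gd
  refine Finset.sum_congr rfl fun i _ => ?_
  congr 1
  funext y
  rw [Finset.sum_eq_single a]
  · rw [pd_coord, dl, Matrix.one_apply_eq, mul_one]
  · intro j _ hj
    rw [pd_coord, dl, Matrix.one_apply_ne hj, mul_zero]
  · intro h; exact absurd (Finset.mem_univ _) h

theorem bo_fix {ι : Type} {F₀ : Filter ι} {f : V n → ℝ} {c : ℝ} (hf : ContDiff ℝ ∞ f)
    (h : ∀ x ∉ core n, f x = c) : Bo F₀ (fun _ : ι => f) := by
  refine Bo.fix (c := c) hf ?_
  refine HasCompactSupport.of_support_subset_isCompact core_cpt ?_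
  intro x hx
  by_contra h1
  exact hx (by simp [h x h1])

theorem bo_fd {ρ : V n → ℝ} (hD : Dom ρ) {σ : V n → ℝ} (hσ : ContDiff ℝ ∞ σ)
    (hoff : ∀ x ∉ core n, σ x = 1) {B : ℕ → ℝ} (a : Fin n) :
    Bo (Fb B) (fun t : Tm n => fd ρ σ a t.1) := by
  have hρ : Bo (Fb B) (fun _ : Tm n => ρ) := bo_fix hD.sm hD.off
  have hs : Bo (Fb B) (fun _ : Tm n => σ) := bo_fix hσ hoff
  exact (hs.mul (hρ.pdd a)).add ((Bo.const (-1)).mul
    (Bo.sum _ fun j => (bo_mat a j).mul (hρ.pdd j)))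

theorem bo_gd {B : ℕ → ℝ} (a : Fin n) : Bo (Fb B) (fun t : Tm n => gd a t.1) :=
  Bo.sum _ fun i => (bo_mat (B := B) i a).pdd i

/-! ## Lower bounds -/

theorem grad_low {ρ : V n → ℝ} (hD : Dom ρ) : ∃ m > 0, ∀ x, ρ x = 0 → m ≤ ∑ i, pd i ρ x ^ 2 := by
  have hS : IsCompact (core n ∩ {x | ρ x = 0}) :=
    core_cpt.inter_right (isClosed_singleton.preimage hD.sm.continuous)
  have hc : Continuous fun x => ∑ i, pd i ρ x ^ 2 :=
    continuous_finsetSum _ fun i _ => (cd_pd hD.sm i).continuous.pow 2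
  obtain ⟨m, hm, hm2⟩ := hS.exists_forall_le' (f := fun x => ∑ i, pd i ρ x ^ 2)
    hc.continuousOn (a := 0) (fun x hx => by
      have h0 : 0 ≤ ∑ i, pd i ρ x ^ 2 := Finset.sum_nonneg fun i _ => sq_nonneg _
      refine lt_of_le_of_ne h0 fun h => hD.nz x hx.2 ?_
      have h1 : ∀ i, pd i ρ x = 0 := fun i => by
        have := (Finset.sum_eq_zero_iff_of_nonneg (fun i _ => sq_nonneg _)).1 h.symm i
          (Finset.mem_univ i)
        exact pow_eq_zero_iff (two_ne_zero) |>.1 this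
      ext v
      have h2 : v = ∑ i, v i • (Pi.single i (1 : ℝ) : V n) := by
        funext j
        simp [Finset.sum_apply, Pi.single_apply]
      rw [h2, map_sum]
      simp only [map_smul]
      have h3 : ∀ i, fderiv ℝ ρ x (Pi.single i 1) = 0 := h1
      simp [h3])
  refine ⟨m, hm, fun x hx => ?_⟩
  have hxc : x ∈ core n := by
    by_contra h
    rw [hD.off x h] at hx
    norm_num at hx
  exact hm2 x ⟨hxc, hx⟩

theorem pd_bound {ρ : V n → ℝ} (hD : Dom ρ) : ∃ R : ℝ, 1 ≤ R ∧ ∀ j x, |pd j ρ x| ≤ R := by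
  obtain ⟨R, hR, h⟩ := rho_bound hD 1
  refine ⟨R, hR, fun j x => ?_⟩
  have h1 := h 1 le_rfl le_rfl x
  rw [norm_iteratedFDeriv_one] at h1
  have h2 := (fderiv ℝ ρ x).le_opNorm (Pi.single j (1 : ℝ))
  rw [Pi.norm_single, norm_one, mul_one] at h2
  exact h2.trans h1

/-- Ellipticity. -/
theorem ell {K : ℕ} {B : ℕ → ℝ} {ε : ℝ} {s : MF n} {ψ : V n → ℝ} {t : MF n} (h : Nc K B ε s ψ t)
    (hε : ε * (2 * (n + 1)) ≤ 1) (x v : V n) :
    (1 / (2 * (|B 0| + 1))) * ∑ i, v i ^ 2 ≤ ∑ i, ∑ j, s x i j * v i * v j := by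
  have hε0 : 0 ≤ ε ∨ n = 0 := by
    rcases Nat.eq_zero_or_pos n with hn | hn
    · exact Or.inr hn
    · exact Or.inl ((abs_nonneg _).trans (h.nt ⟨0, hn⟩ ⟨0, hn⟩ x))
  have h1 : ∑ i, ∑ j, s x i j * v i * v j = ψ x * ∑ i, ∑ j, t x i j * v i * v j := by
    rw [Finset.mul_sum]
    refine Finset.sum_congr rfl fun i _ => ?_
    rw [Finset.mul_sum]
    refine Finset.sum_congr rfl fun j _ => ?_
    rw [h.eq x, Matrix.smul_apply, smul_eq_mul]
    ring
  have hψ : 0 < ψ x := h.pψ.2 x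
  have hψ2 : 1 / (|B 0| + 1) ≤ ψ x := by
    have h2 := h.iψ x
    have h3 : (ψ x)⁻¹ ≤ |B 0| + 1 := h2.trans ((le_abs_self _).trans (by linarith))
    rw [one_div]
    exact inv_le_of_inv_le₀ hψ h3
  have hs0 : 0 ≤ ∑ i, v i ^ 2 := Finset.sum_nonneg fun i _ => sq_nonneg _
  have h4 : (1 / 2) * ∑ i, v i ^ 2 ≤ ∑ i, ∑ j, t x i j * v i * v j := by
    have h5 : ∑ i, ∑ j, t x i j * v i * v j =
        (∑ i, v i ^ 2) + ∑ i, ∑ j, (t x i j - dl i j) * v i * v j := by
      rw [← Finset.sum_add_distrib]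
      refine Finset.sum_congr rfl fun i _ => ?_
      have h6 : v i ^ 2 = ∑ j, dl i j * v i * v j := by
        rw [Finset.sum_eq_single i]
        · rw [dl, Matrix.one_apply_eq]
          ring
        · intro j _ hj
          rw [dl, Matrix.one_apply_ne (Ne.symm hj)]
          ring
        · intro h; exact absurd (Finset.mem_univ _) h
      rw [h6, ← Finset.sum_add_distrib]
      exact Finset.sum_congr rfl fun j _ => by ring
    have h7 : |∑ i, ∑ j, (t x i j - dl i j) * v i * v j| ≤ 1 / 2 * ∑ i, v i ^ 2 := by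
      have h8 : ∀ i j, |(t x i j - dl i j) * v i * v j| ≤ ε * ((v i ^ 2 + v j ^ 2) / 2) := by
        intro i j
        rw [mul_assoc, abs_mul]
        have h9 : |v i * v j| ≤ (v i ^ 2 + v j ^ 2) / 2 := by
          rw [abs_le]
          constructor <;> nlinarith [sq_nonneg (v i + v j), sq_nonneg (v i - v j)]
        exact mul_le_mul (h.nt i j x) h9 (abs_nonneg _) ((abs_nonneg _).trans (h.nt i j x))
      calc |∑ i, ∑ j, (t x i j - dl i j) * v i * v j|
          ≤ ∑ i, |∑ j, (t x i j - dl i j) * v i * v j| := Finset.abs_sum_le_sum_abs _ _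
        _ ≤ ∑ i, ∑ j, |(t x i j - dl i j) * v i * v j| :=
          Finset.sum_le_sum fun i _ => Finset.abs_sum_le_sum_abs _ _
        _ ≤ ∑ i, ∑ j, ε * ((v i ^ 2 + v j ^ 2) / 2) :=
          Finset.sum_le_sum fun i _ => Finset.sum_le_sum fun j _ => h8 i j
        _ = ε * n * ∑ i, v i ^ 2 := by
          have h9 : ∀ i : Fin n, ∑ j : Fin n, ε * ((v i ^ 2 + v j ^ 2) / 2) =
              ε * (n * v i ^ 2 + ∑ j, v j ^ 2) / 2 := by
            intro i
            rw [← Finset.mul_sum, ← Finset.sum_div, Finset.sum_add_distrib, Finset.sum_const,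
              Finset.card_univ, Fintype.card_fin, nsmul_eq_mul]
            ring
          simp only [h9]
          rw [← Finset.sum_div, ← Finset.mul_sum, Finset.sum_add_distrib, ← Finset.mul_sum,
            Finset.sum_const, Finset.card_univ, Fintype.card_fin, nsmul_eq_mul]
          ring
        _ ≤ 1 / 2 * ∑ i, v i ^ 2 := by
          refine mul_le_mul_of_nonneg_right ?_ hs0
          rcases hε0 with h10 | h10
          · nlinarith
          · rw [h10]
            norm_num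
    have h11 := (abs_le.1 h7).1
    rw [h5]
    linarith
  rw [h1]
  calc 1 / (2 * (|B 0| + 1)) * ∑ i, v i ^ 2 = 1 / (|B 0| + 1) * ((1 / 2) * ∑ i, v i ^ 2) := by
        field_simp
    _ ≤ ψ x * ∑ i, ∑ j, t x i j * v i * v j := by
        have h12 : 0 ≤ (1 / 2) * ∑ i, v i ^ 2 := by positivity
        exact mul_le_mul hψ2 h4 h12 hψ.le

/-- Bounds of the product `ψ t`. -/
theorem nc_bd {K : ℕ} {B : ℕ → ℝ} {ε : ℝ} {s : MF n} {ψ : V n → ℝ} {t : MF n}
    (h : Nc K B ε s ψ t) (i j : Fin n) :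
    Cb K (fun l => 2 ^ l * ((∑ m ∈ Finset.range (l + 1), |B m|) *
      ∑ m ∈ Finset.range (l + 1), |B m|)) (fun x => s x i j) := by
  intro l hl x
  have hM : ∀ m ≤ l, B m ≤ ∑ m ∈ Finset.range (l + 1), |B m| := fun m hm =>
    (le_abs_self _).trans (Finset.single_le_sum (f := fun m => |B m|) (fun _ _ => abs_nonneg _)
      (Finset.mem_range.2 (by omega)))
  have h1 : Cl l (∑ m ∈ Finset.range (l + 1), |B m|) ψ := fun m hm y =>
    (h.bψ m (hm.trans hl) y).trans (hM m hm)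
  have h2 : Cl l (∑ m ∈ Finset.range (l + 1), |B m|) (fun x => t x i j) := fun m hm y =>
    (h.bt i j m (hm.trans hl) y).trans (hM m hm)
  have h3 := H501B.cl_mul h.pψ.1 (h.st i j) h1 h2 l le_rfl x
  have e : (fun x => s x i j) = fun x => ψ x * t x i j := by
    funext y
    rw [h.eq y, Matrix.smul_apply, smul_eq_mul]
  rw [e]
  exact h3

theorem nc_sm {K : ℕ} {B : ℕ → ℝ} {ε : ℝ} {s : MF n} {ψ : V n → ℝ} {t : MF n}
    (h : Nc K B ε s ψ t) : SmM s := by
  intro i j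
  have e : (fun x => s x i j) = fun x => ψ x * t x i j := by
    funext y
    rw [h.eq y, Matrix.smul_apply, smul_eq_mul]
  rw [e]
  exact h.pψ.1.mul (h.st i j)

theorem nc_sy {K : ℕ} {B : ℕ → ℝ} {ε : ℝ} {s : MF n} {ψ : V n → ℝ} {t : MF n}
    (h : Nc K B ε s ψ t) (x : V n) : (s x).IsSymm := by
  rw [h.eq x, Matrix.IsSymm, Matrix.transpose_smul, (h.sy x)]

/-- The second clause. -/
theorem main (hR : RowREC) {ρ : V n → ℝ} (hD : Dom ρ) {σ : V n → ℝ} (hσ : SmP σ)
    (hoff : ∀ x ∉ core n, σ x = 1) {η : ℝ} (hη : 0 < η) (k : ℕ) (B : ℕ → ℝ) :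
    ∃ (K : ℕ) (ε₀ B' : ℝ), 0 < ε₀ ∧ ∀ (s : MF n) (ψ : V n → ℝ) (t : MF n), Nc K B ε₀ s ψ t →
      (∀ x, ρ x = 0 → ∀ i j, |s x i j - sc σ x i j| ≤ ε₀) →
      ∃ w : V n → V n, Hc ρ σ s w ∧ Cl 1 η w ∧ Cl k B' w := by
  classical
  set Bs : ℕ → ℝ := fun l => 2 ^ l * ((∑ m ∈ Finset.range (l + 1), |B m|) *
    ∑ m ∈ Finset.range (l + 1), |B m|) with hBs
  choose Cf hCf using fun a => bo_seq (bo_fd hD hσ.1 hoff (B := Bs) a)
  choose Cg hCg using fun a => bo_seq (bo_gd (n := n) (B := Bs) a)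
  set Bq : ℕ → ℝ := fun l => |Bs l| + (∑ a, |Cf a l|) + ∑ a, |Cg a l| with hBq
  have hq1 : ∀ l, Bs l ≤ Bq l := fun l => by
    have h1 : 0 ≤ ∑ a, |Cf a l| := Finset.sum_nonneg fun _ _ => abs_nonneg _
    have h2 : 0 ≤ ∑ a, |Cg a l| := Finset.sum_nonneg fun _ _ => abs_nonneg _
    have h3 := le_abs_self (Bs l)
    simp only [hBq]
    linarith
  have hq2 : ∀ a l, Cf a l ≤ Bq l := fun a l => by
    have h1 : |Cf a l| ≤ ∑ a, |Cf a l| :=
      Finset.single_le_sum (f := fun a => |Cf a l|) (fun _ _ => abs_nonneg _) (Finset.mem_univ a)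
    have h2 : 0 ≤ ∑ a, |Cg a l| := Finset.sum_nonneg fun _ _ => abs_nonneg _
    have h3 := abs_nonneg (Bs l)
    have h4 := le_abs_self (Cf a l)
    simp only [hBq]
    linarith
  have hq3 : ∀ a l, Cg a l ≤ Bq l := fun a l => by
    have h1 : |Cg a l| ≤ ∑ a, |Cg a l| :=
      Finset.single_le_sum (f := fun a => |Cg a l|) (fun _ _ => abs_nonneg _) (Finset.mem_univ a)
    have h2 : 0 ≤ ∑ a, |Cf a l| := Finset.sum_nonneg fun _ _ => abs_nonneg _
    have h3 := abs_nonneg (Bs l)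
    have h4 := le_abs_self (Cg a l)
    simp only [hBq]
    linarith
  set μ : ℝ := 1 / (2 * (|B 0| + 1)) with hμ
  have hμ0 : 0 < μ := by positivity
  obtain ⟨Kr, Br, hRec⟩ := hR ρ hD (max k 1) Bq μ hμ0
  obtain ⟨B'', γ, hγ, hBor⟩ := borel2 hD (max k 1) (le_max_right _ _) Br hη
  have hev : ∀ᶠ t in Fb (n := n) Bs, ∀ a, Cb Kr (Cf a) (fd ρ σ a t.1) ∧
      Cb Kr (Cg a) (gd a t.1) := by
    rw [eventually_all]
    exact fun a => (hCf a Kr).and (hCg a Kr)
  obtain ⟨K', hK'⟩ := evb_iff.1 hev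
  obtain ⟨m₀, hm₀, hlow⟩ := grad_low hD
  obtain ⟨R, hR1, hpd⟩ := pd_bound hD
  have hR0 : 0 < R := by linarith
  refine ⟨max K' Kr, min (1 / (2 * (n + 1))) (γ * (μ * m₀) / (n * R + 1)), |B''|,
    lt_min (by positivity) (by positivity), fun s ψ t hN hclose => ?_⟩
  have hs := nc_sm hN
  have hsy := nc_sy hN
  have hbd := nc_bd hN
  have hFG := hK' ⟨s, hs⟩ fun i j l hl x => hbd i j l (hl.trans (le_max_left _ _)) x
  have hell := ell hN (by
    have h1 := min_le_left (1 / (2 * ((n : ℝ) + 1))) (γ * (μ * m₀) / (n * R + 1))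
    calc min (1 / (2 * ((n : ℝ) + 1))) (γ * (μ * m₀) / (n * R + 1)) * (2 * (n + 1))
        ≤ 1 / (2 * ((n : ℝ) + 1)) * (2 * (n + 1)) := by gcongr
      _ = 1 := by field_simp)
  have hfs : ∀ a, ContDiff ℝ ∞ (fd ρ σ a s) := fun a =>
    (bo_fd hD hσ.1 hoff (B := Bs) a).sm ⟨s, hs⟩
  have hgs : ∀ a, ContDiff ℝ ∞ (gd a s) := fun a => (bo_gd (n := n) (B := Bs) a).sm ⟨s, hs⟩
  choose c hc hck hc0 hc1 hE using fun a => hRec s hs hsy
    (fun i j => cb_le (fun l hl x => hbd i j l (hl.trans (le_max_right _ _)) x) hq1) hell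
    (fd ρ σ a s) (gd a s) (hfs a) (hgs a) (cb_le (hFG a).1 (hq2 a)) (cb_le (hFG a).2 (hq3 a))
  -- the first coefficient on the boundary
  have hsmall : ∀ a x, ρ x = 0 → |c a 1 x| ≤ γ := by
    intro a x hx
    have h1 := hc1 a x hx
    have h2 : μ * m₀ ≤ gr s ρ ρ x := by
      have h3 := hell x (fun i => pd i ρ x)
      calc μ * m₀ ≤ μ * ∑ i, pd i ρ x ^ 2 := by
            have := hlow x hx
            gcongr
        _ ≤ gr s ρ ρ x := h3
    have h4 : |fd ρ σ a s x| ≤ γ * (μ * m₀) := by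
      have e : fd ρ σ a s x = ∑ j, (sc σ x a j - s x a j) * pd j ρ x := by
        unfold fd
        simp only [sub_mul, Finset.sum_sub_distrib]
        rw [Finset.sum_eq_single (f := fun j => sc σ x a j * pd j ρ x) a]
        · simp [sc]
          ring
        · intro j _ hj
          simp [sc, Matrix.one_apply_ne (Ne.symm hj)]
        · intro h; exact absurd (Finset.mem_univ _) h
      rw [e]
      set ε₀ : ℝ := min (1 / (2 * ((n : ℝ) + 1))) (γ * (μ * m₀) / (n * R + 1)) with hε₀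
      have hε : ε₀ ≤ γ * (μ * m₀) / (n * R + 1) := min_le_right _ _
      calc |∑ j, (sc σ x a j - s x a j) * pd j ρ x|
          ≤ ∑ j, |(sc σ x a j - s x a j) * pd j ρ x| := Finset.abs_sum_le_sum_abs _ _
        _ ≤ ∑ _j : Fin n, γ * (μ * m₀) / (n * R + 1) * R := by
            refine Finset.sum_le_sum fun j _ => ?_
            rw [abs_mul]
            refine mul_le_mul ?_ (hpd j x) (abs_nonneg _) (by positivity)
            rw [abs_sub_comm]
            exact (hclose x hx a j).trans hε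
        _ = γ * (μ * m₀) * (n * R / (n * R + 1)) := by
            rw [Finset.sum_const, Finset.card_univ, Fintype.card_fin, nsmul_eq_mul]
            ring
        _ ≤ γ * (μ * m₀) * 1 := by
            refine mul_le_mul_of_nonneg_left ?_ (by positivity)
            rw [div_le_one (by positivity)]
            linarith
        _ = γ * (μ * m₀) := mul_one _
    have hp : 0 < μ * m₀ := by positivity
    have h5 : |gr s ρ ρ x| * |c a 1 x| ≤ γ * (μ * m₀) := by
      rw [← abs_mul, h1]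
      exact h4
    have h6 : μ * m₀ * |c a 1 x| ≤ γ * (μ * m₀) := by
      refine le_trans (mul_le_mul_of_nonneg_right ?_ (abs_nonneg _)) h5
      exact h2.trans (le_abs_self _)
    have h7 : μ * m₀ * |c a 1 x| ≤ μ * m₀ * γ := by linarith
    exact le_of_mul_le_mul_left h7 hp
  choose u hu hu1 huk hu0 hud using fun a => hBor (c a) (hc a) (hck a) (hc0 a) (hsmall a)
  have hcor := fun a => corr hD hs (hc a) (hc0 a) (hc1 a) (hE a) (hud a)
  have hua : ContDiff ℝ ∞ (fun x a => u a x : V n → V n) := contDiff_pi.2 hu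
  have hya : ∀ a, ContDiff ℝ ∞ (fun y : V n => y a) := fun a => contDiff_apply ℝ ℝ a
  refine ⟨fun x a => u a x, ⟨hua, fun x hx => ?_, fun x hx => ?_, fun a x hx => ?_,
    fun a m => ?_⟩, ?_, ?_⟩
  · funext a
    exact (hcor a).1 x hx
  · funext a
    exact hu0 a x hx
  · show gr s (fun y : V n => y a + u a y) ρ x = _
    rw [gr_addl _ (hya a) (hu a), (hcor a).2.1 x hx, gr_coord, fd]
    ring
  · obtain ⟨r, hr, E, hEs, hE1⟩ := (hcor a).2.2 m
    refine ⟨r, hr, E, hEs, fun x hx => ?_⟩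
    show dr s (fun y : V n => y a + u a y) x = _
    rw [dr_add hs (hya a) (hu a), dr_coord]
    exact hE1 x hx
  · exact fun l hl x => H72.iter_pi_le hua l x hη.le fun a => hu1 a l hl x
  · exact fun l hl x => H72.iter_pi_le hua l x (abs_nonneg _) fun a =>
      (huk a l (hl.trans (le_max_left _ _)) x).trans (le_abs_self _)

/-- Bounds of the base. -/
theorem base_bd {σ : V n → ℝ} (hσ : SmP σ) (hoff : ∀ x ∉ core n, σ x = 1) :
    ∃ B : ℕ → ℝ, ∀ K ε, 0 ≤ ε → Nc K B ε (sc σ) σ (fun _ => 1) := by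
  have h1 : Bo (⊤ : Filter Unit) (fun _ : Unit => σ) := bo_fix hσ.1 hoff
  obtain ⟨C, hC⟩ := bo_seq h1
  have hC' : ∀ K, Cb K C σ := fun K => by
    have h2 := hC K
    rw [eventually_top] at h2
    exact h2 ()
  -- the inverse
  have hinv : ∃ M : ℝ, ∀ x, (σ x)⁻¹ ≤ M := by
    have hci : ContinuousOn (fun x => (σ x)⁻¹) (core n) :=
      (hσ.1.continuous.inv₀ fun x => (hσ.2 x).ne').continuousOn
    obtain ⟨M, hM⟩ := core_cpt.exists_bound_of_continuousOn hci
    refine ⟨max M 1, fun x => ?_⟩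
    by_cases hx : x ∈ core n
    · exact (le_abs_self _).trans ((hM x hx).trans (le_max_left _ _))
    · rw [hoff x hx, inv_one]
      exact le_max_right _ _
  obtain ⟨M, hM⟩ := hinv
  refine ⟨fun l => |C l| + |M| + 1, fun K ε hε => ⟨hσ, fun i j => contDiff_const, fun x => ?_,
    fun x => rfl, fun l hl x => ?_, fun x => ?_, fun i j l hl x => ?_, fun i j x => ?_⟩⟩
  · rw [Matrix.IsSymm, Matrix.transpose_one]
  · have := (hC' K l hl x).trans (le_abs_self _)
    have h3 := abs_nonneg M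
    show _ ≤ |C l| + |M| + 1
    linarith
  · have := (hM x).trans (le_abs_self _)
    have h3 := abs_nonneg (C 0)
    show _ ≤ |C 0| + |M| + 1
    linarith
  · show _ ≤ |C l| + |M| + 1
    have h3 := abs_nonneg (C l)
    have h4 := abs_nonneg M
    rcases Nat.eq_zero_or_pos l with rfl | hl0
    · rw [norm_iteratedFDeriv_zero, Real.norm_eq_abs]
      have h5 : |(1 : Matrix (Fin n) (Fin n) ℝ) i j| ≤ 1 := by
        rw [Matrix.one_apply]
        split_ifs <;> simp
      linarith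
    · rw [iteratedFDeriv_const_of_ne (by omega)]
      simp only [Pi.zero_apply, norm_zero]
      positivity
  · show |(1 : Matrix (Fin n) (Fin n) ℝ) i j - dl i j| ≤ ε
    rw [dl, sub_self, abs_zero]
    exact hε

/-- **Row E_BOR.** -/
theorem bor (hR : RowREC) : E.RowBOR := by
  intro n ρ hD σ hσ hoff η hη
  refine ⟨?_, fun k B => main hR hD hσ hoff hη k B⟩
  obtain ⟨B, hB⟩ := base_bd hσ hoff
  obtain ⟨K, ε₀, B', hε₀, h⟩ := main hR hD hσ hoff hη 1 B
  obtain ⟨w, hw, hw1, -⟩ := h (sc σ) σ (fun _ => 1) (hB K ε₀ hε₀.le) fun x _ i j => by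
    rw [sub_self, abs_zero]
    exact hε₀.le
  exact ⟨w, hw, hw1⟩

end Vale.Agent.P088.LR.E.H501
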