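import Vale.Agent.P088.H501.Borel

/-!
# P088, theorem E, row E_BOR, first part: Borel's lemma along `{ρ = 0}` in a thin collar

The first coefficient is small on `{ρ = 0}` only; the sum is small in `C^1` and bounded in `C^k`.
-/

open MeasureTheory Set Filter
open scoped ContDiff Matrix Topology

noncomputable section

namespace Vale.Agent.P088.LR.H501B

open Vale.Agent.P088.LR Vale.Agent.P088.LR.B

variable {n : ℕ} {ρ : V n → ℝ}

/-- Points where `ρ` is small are near `{ρ = 0}`. -/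
theorem near_zero (hρ : Dom ρ) {γ : ℝ} (hγ : 0 < γ) : ∃ d : ℝ, 0 < d ∧ d ≤ 1 ∧
    ∀ x, |ρ x| < d → ∃ y, ρ y = 0 ∧ ‖x - y‖ ≤ γ := by
  have hS : IsCompact (core n ∩ {x | ∀ y, ρ y = 0 → γ ≤ ‖x - y‖}) := by
    refine core_compact.inter_right ?_
    have e : {x : V n | ∀ y, ρ y = 0 → γ ≤ ‖x - y‖} = ⋂ y, ⋂ (_ : ρ y = 0), {x | γ ≤ ‖x - y‖} := by
      ext x
      simp only [mem_iInter, mem_ofPred_eq]
    rw [e]
    refine isClosed_iInter fun y => isClosed_iInter fun _ => ?_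
    exact isClosed_le continuous_const (continuous_id.sub continuous_const).norm
  obtain ⟨m, hm, hm2⟩ := hS.exists_forall_le' (f := fun x => |ρ x|)
    (hρ.sm.continuous.abs.continuousOn) (a := 0) (fun x hx => by
      rw [abs_pos]
      intro h
      have h1 := hx.2 x h
      rw [sub_self, norm_zero] at h1
      linarith)
  refine ⟨min m 1, lt_min hm one_pos, min_le_right _ _, fun x hx => ?_⟩
  have hxc : x ∈ core n := by
    by_contra h
    rw [hρ.off x h, abs_neg, abs_one] at hx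
    exact absurd (hx.trans_le (min_le_right _ _)) (lt_irrefl _)
  by_contra hcon
  have h1 : ∀ y, ρ y = 0 → γ ≤ ‖x - y‖ := by
    intro y hy
    by_contra h2
    exact hcon ⟨y, hy, (not_le.1 h2).le⟩
  have h2 := hm2 x ⟨hxc, h1⟩
  exact absurd (hx.trans_le ((min_le_left _ _).trans h2)) (lt_irrefl _)

/-- Bound of the cut-off power without gain. -/
theorem cut_bound0 (hρ : Dom ρ) (p : ℕ) : ∃ C : ℝ, 0 < C ∧ ∀ d, 0 < d → d ≤ 1 →
    Cl p C (cut ρ p d) := by
  obtain ⟨C0, hC0, hK⟩ := Kp_bound p p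
  obtain ⟨R, hR, hρb⟩ := rho_bound hρ p
  refine ⟨p.factorial * C0 * R ^ p, by positivity, fun d hd hd1 i hi x => ?_⟩
  have hR0 : 0 < R := by linarith
  have hRd : 1 ≤ R / d := by rw [le_div_iff₀ hd]; linarith
  have e1 : cut ρ p d = d ^ p • ((Kp p) ∘ (d⁻¹ • ρ)) := by
    funext y
    simp only [cut, Pi.smul_apply, Function.comp_apply, Kp, smul_eq_mul]
    rw [mul_pow, inv_pow, div_eq_inv_mul]
    field_simp
  have hsc : ContDiff ℝ ∞ (d⁻¹ • ρ) := hρ.sm.const_smul d⁻¹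
  have h1 : ‖iteratedFDeriv ℝ i ((Kp p) ∘ (d⁻¹ • ρ)) x‖ ≤ i.factorial * C0 * (R / d) ^ i := by
    refine norm_iteratedFDeriv_comp_le (Kp_smooth p) hsc (by exact_mod_cast le_top) x
      (fun j hj => hK j (hj.trans hi) _) fun j hj1 hj => ?_
    rw [iteratedFDeriv_const_smul_apply (hρ.sm.of_le (by exact_mod_cast le_top)).contDiffAt,
      norm_smul, norm_inv, Real.norm_eq_abs, abs_of_pos hd]
    calc d⁻¹ * ‖iteratedFDeriv ℝ j ρ x‖ ≤ d⁻¹ * R :=
          mul_le_mul_of_nonneg_left (hρb j hj1 (hj.trans hi) x) (by positivity)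
      _ = R / d := by ring
      _ = (R / d) ^ 1 := (pow_one _).symm
      _ ≤ (R / d) ^ j := pow_le_pow_right₀ hRd hj1
  rw [e1, iteratedFDeriv_const_smul_apply (((Kp_smooth p).comp hsc).of_le
    (by exact_mod_cast le_top)).contDiffAt, norm_smul, norm_pow, Real.norm_eq_abs, abs_of_pos hd]
  calc d ^ p * ‖iteratedFDeriv ℝ i ((Kp p) ∘ (d⁻¹ • ρ)) x‖
      ≤ d ^ p * (i.factorial * C0 * (R / d) ^ i) := mul_le_mul_of_nonneg_left h1 (by positivity)
    _ ≤ d ^ p * (p.factorial * C0 * (R / d) ^ p) := by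
        refine mul_le_mul_of_nonneg_left ?_ (by positivity)
        have h2 : (i.factorial : ℝ) ≤ p.factorial := by exact_mod_cast Nat.factorial_le hi
        have h3 : (R / d) ^ i ≤ (R / d) ^ p := pow_le_pow_right₀ hRd hi
        gcongr
    _ = p.factorial * C0 * R ^ p := by
        rw [div_pow]
        field_simp

theorem lip_of_cl {B : ℝ} {a : V n → ℝ} (ha : ContDiff ℝ ∞ a) (h : Cl 1 B a) (x y : V n) :
    |a x - a y| ≤ B * ‖x - y‖ := by
  have h1 : ∀ z ∈ (univ : Set (V n)), ‖fderiv ℝ a z‖ ≤ B := fun z _ => by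
    rw [← norm_iteratedFDeriv_one]
    exact h 1 le_rfl z
  have h2 := convex_univ.norm_image_sub_le_of_norm_fderiv_le
    (fun z _ => (ha.differentiable (by simp)).differentiableAt) h1 (mem_univ y) (mem_univ x)
  rwa [Real.norm_eq_abs] at h2

/-- The term of order one. -/
theorem term_one (hρ : Dom ρ) (B : ℝ) {η : ℝ} (hη : 0 < η) : ∃ d₁ γ : ℝ, 0 < d₁ ∧ d₁ ≤ 1 ∧ 0 < γ ∧
    ∀ d, 0 < d → d ≤ d₁ → ∀ a : V n → ℝ, ContDiff ℝ ∞ a → Cl 1 B a →
      (∀ x, ρ x = 0 → |a x| ≤ γ) → Cl 1 η (fun x => cut ρ 1 d x * a x) := by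
  obtain ⟨C, hC, hC1⟩ := cut_bound hρ (p := 1) (l := 0) (by norm_num)
  obtain ⟨D, hD, hD1⟩ := cut_bound0 hρ 1
  have hB1 : 0 < |B| + 1 := by positivity
  set γ' : ℝ := η / (4 * (|B| + 1) * (D + 1)) with hγ'
  have hγ'0 : 0 < γ' := by positivity
  obtain ⟨d₀, hd₀, hd₀1, hnear⟩ := near_zero hρ hγ'0
  refine ⟨min d₀ (η / (4 * (C + 1) * (|B| + 1))), η / (4 * (D + 1)), lt_min hd₀ (by positivity),
    (min_le_left _ _).trans hd₀1, by positivity, fun d hd hdd a ha hBa hγ => ?_⟩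
  have hd1 : d ≤ 1 := hdd.trans ((min_le_left _ _).trans hd₀1)
  have hB0 : 0 ≤ B := cl_nonneg hBa
  have habs : |B| = B := abs_of_nonneg hB0
  rw [habs] at hB1 hγ'
  have hdC : C * d * B ≤ η / 4 := by
    have h1 : d ≤ η / (4 * (C + 1) * (B + 1)) := by
      have := hdd.trans (min_le_right _ _)
      rwa [habs] at this
    calc C * d * B ≤ (C + 1) * (η / (4 * (C + 1) * (B + 1))) * (B + 1) := by
          have h2 : C ≤ C + 1 := by linarith
          have h3 : B ≤ B + 1 := by linarith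
          gcongr
      _ = η / 4 := by field_simp
  have hcut0 : ∀ x, ‖cut ρ 1 d x‖ ≤ C * d := fun x => by
    have h1 := hC1 d hd hd1 0 le_rfl x
    rwa [norm_iteratedFDeriv_zero] at h1
  have hD1' : ∀ x, ‖fderiv ℝ (cut ρ 1 d) x‖ ≤ D := fun x => by
    rw [← norm_iteratedFDeriv_one]
    exact hD1 d hd hd1 1 le_rfl x
  have hz : ∀ x, d ≤ |ρ x| → cut ρ 1 d x = 0 ∧ fderiv ℝ (cut ρ 1 d) x = 0 := by
    intro x hx
    have hc : ∀ y, d / 2 < |ρ y| → cut ρ 1 d y = 0 := by
      intro y hy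
      unfold cut
      rw [chi_zero, mul_zero]
      rw [abs_div, abs_of_pos hd, le_div_iff₀ hd]
      linarith
    have hev : cut ρ 1 d =ᶠ[𝓝 x] fun _ => 0 := by
      have h1 : ∀ᶠ y in 𝓝 x, d / 2 < |ρ y| :=
        (hρ.sm.continuous.abs.continuousAt).eventually (lt_mem_nhds (by linarith))
      filter_upwards [h1] with y hy
      exact hc y hy
    refine ⟨hc x (by linarith), ?_⟩
    rw [hev.fderiv_eq, fderiv_fun_const]
    rfl
  have hsm : ∀ x, |ρ x| < d → |a x| ≤ η / (2 * (D + 1)) := by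
    intro x hx
    obtain ⟨y, hy, hxy⟩ := hnear x (hx.trans_le (hdd.trans (min_le_left _ _)))
    have h1 := lip_of_cl ha hBa x y
    have h2 := hγ y hy
    have h3 : |a x| ≤ |a y| + |a x - a y| := by
      have h4 := abs_add_le (a y) (a x - a y)
      rwa [add_sub_cancel] at h4
    have h5 : B * ‖x - y‖ ≤ η / (4 * (D + 1)) := by
      calc B * ‖x - y‖ ≤ (B + 1) * (η / (4 * (B + 1) * (D + 1))) := by
            have h6 : B ≤ B + 1 := by linarith
            rw [hγ'] at hxy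
            gcongr
        _ = η / (4 * (D + 1)) := by field_simp
    calc |a x| ≤ η / (4 * (D + 1)) + η / (4 * (D + 1)) := by linarith
      _ = η / (2 * (D + 1)) := by field_simp; norm_num
  have ha1 : ∀ x, ‖fderiv ℝ a x‖ ≤ B := fun x => by
    rw [← norm_iteratedFDeriv_one]
    exact hBa 1 le_rfl x
  have ha0 : ∀ x, ‖a x‖ ≤ B := fun x => by
    have := hBa 0 (by norm_num) x
    rwa [norm_iteratedFDeriv_zero] at this
  intro l hl x
  have h0 : ‖cut ρ 1 d x‖ * B ≤ η / 4 := (mul_le_mul_of_nonneg_right (hcut0 x) hB0).trans hdC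
  rcases Nat.le_one_iff_eq_zero_or_eq_one.1 hl with rfl | rfl
  · rw [norm_iteratedFDeriv_zero, norm_mul]
    calc ‖cut ρ 1 d x‖ * ‖a x‖ ≤ ‖cut ρ 1 d x‖ * B :=
          mul_le_mul_of_nonneg_left (ha0 x) (norm_nonneg _)
      _ ≤ η := by linarith
  · rw [norm_iteratedFDeriv_one]
    have hc1 : DifferentiableAt ℝ (cut ρ 1 d) x :=
      ((cut_smooth hρ.sm 1 d).differentiable (by simp)).differentiableAt
    have ha2 : DifferentiableAt ℝ a x := (ha.differentiable (by simp)).differentiableAt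
    rw [fderiv_fun_mul hc1 ha2]
    refine (norm_add_le _ _).trans ?_
    rw [norm_smul, norm_smul]
    have h1 : ‖cut ρ 1 d x‖ * ‖fderiv ℝ a x‖ ≤ η / 4 :=
      (mul_le_mul_of_nonneg_left (ha1 x) (norm_nonneg _)).trans h0
    have h2 : ‖a x‖ * ‖fderiv ℝ (cut ρ 1 d) x‖ ≤ η / 2 := by
      by_cases hx : |ρ x| < d
      · calc ‖a x‖ * ‖fderiv ℝ (cut ρ 1 d) x‖ ≤ η / (2 * (D + 1)) * (D + 1) := by
              have h3 := hsm x hx
              have h4 := hD1' x
              rw [Real.norm_eq_abs]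
              have h5 : ‖fderiv ℝ (cut ρ 1 d) x‖ ≤ D + 1 := by linarith
              gcongr
          _ = η / 2 := by field_simp
      · rw [(hz x (not_lt.1 hx)).2, norm_zero, mul_zero]
        positivity
    linarith

/-- The radii. -/
theorem exists_radii1 (hρ : Dom ρ) (k : ℕ) {d₀ : ℝ} (hd₀ : 0 < d₀) (hd₁ : d₀ ≤ 1) {η : ℝ}
    (hη : 0 < η) {a : ℕ → V n → ℝ} (ha : ∀ m, ContDiff ℝ ∞ (a m)) : ∃ d : ℕ → ℝ, (∀ m, 0 < d m) ∧
      (∀ m, d m ≤ 1) ∧ (∀ m ≤ k, d m = d₀) ∧ ∀ m, k < m → ∀ i l, i + l < m →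
        Cl l (η * (1 / 2) ^ m) (fun x => cut ρ (m - i) (d m) x * a m x) := by
  have hC : ∀ m, ∃ C : ℝ, 0 < C ∧ ∀ i l, i + l < m → ∀ d, 0 < d → d ≤ 1 →
      Cl l (C * d) (fun x => cut ρ (m - i) d x * a m x) := fun m => terms_bound hρ m (ha m)
  choose C hC0 hC1 using hC
  refine ⟨fun m => if m ≤ k then d₀ else min 1 (η * (1 / 2) ^ m / C m), fun m => ?_, fun m => ?_,
    fun m hm => ?_, fun m hm i l hil => ?_⟩
  · show 0 < if m ≤ k then d₀ else min 1 (η * (1 / 2) ^ m / C m)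
    split_ifs
    · exact hd₀
    · have := hC0 m
      positivity
  · show (if m ≤ k then d₀ else min 1 (η * (1 / 2) ^ m / C m)) ≤ 1
    split_ifs
    · exact hd₁
    · exact min_le_left _ _
  · show (if m ≤ k then d₀ else min 1 (η * (1 / 2) ^ m / C m)) = d₀
    rw [if_pos hm]
  · have e : (if m ≤ k then d₀ else min 1 (η * (1 / 2) ^ m / C m)) =
        min 1 (η * (1 / 2) ^ m / C m) := if_neg (by omega)
    show Cl l (η * (1 / 2) ^ m) (fun x => cut ρ (m - i)
      (if m ≤ k then d₀ else min 1 (η * (1 / 2) ^ m / C m)) x * a m x)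
    rw [e]
    have hp : 0 < η * (1 / 2) ^ m / C m := by
      have := hC0 m
      positivity
    refine cl_le (hC1 m i l hil _ (lt_min one_pos hp) (min_le_left _ _)) ?_
    calc C m * min 1 (η * (1 / 2) ^ m / C m) ≤ C m * (η * (1 / 2) ^ m / C m) :=
          mul_le_mul_of_nonneg_left (min_le_right _ _) (hC0 m).le
      _ = η * (1 / 2) ^ m := by
          have := (hC0 m).ne'
          field_simp

/-- **Borel's lemma along `{ρ = 0}` in a thin collar.** -/
theorem borel2 (hρ : Dom ρ) (k : ℕ) (hk : 1 ≤ k) (B : ℝ) {η : ℝ} (hη : 0 < η) :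
    ∃ B'' γ : ℝ, 0 < γ ∧ ∀ a : ℕ → V n → ℝ, (∀ m, ContDiff ℝ ∞ (a m)) → (∀ m ≤ k, Cl k B (a m)) →
    (∀ x, a 0 x = 0) → (∀ x, ρ x = 0 → |a 1 x| ≤ γ) → ∃ u : V n → ℝ, ContDiff ℝ ∞ u ∧
      Cl 1 η u ∧ Cl k B'' u ∧ (∀ x ∉ core n, u x = 0) ∧ ∀ M : ℕ, ∃ h : V n → ℝ, ContDiff ℝ ∞ h ∧
        ∀ x, u x = (∑ m ∈ Finset.range M, ρ x ^ m * a m x) + ρ x ^ M * h x := by
  -- the terms of order `2 ≤ m ≤ k`
  have hCm : ∀ m : ℕ, ∃ C : ℝ, 0 < C ∧ (2 ≤ m → ∀ d, 0 < d → d ≤ 1 → Cl 1 (C * d) (cut ρ m d)) := by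
    intro m
    by_cases hm : 2 ≤ m
    · obtain ⟨C, hC, h1⟩ := cut_bound hρ (p := m) (l := 1) (by omega)
      exact ⟨C, hC, fun _ => h1⟩
    · exact ⟨1, one_pos, fun h => absurd h hm⟩
  choose Cm hCm0 hCm1 using hCm
  set S : ℝ := 1 + ∑ m ∈ Finset.range (k + 1), Cm m with hS
  have hS0 : 0 < S := by
    have : 0 ≤ ∑ m ∈ Finset.range (k + 1), Cm m := Finset.sum_nonneg fun i _ => (hCm0 i).le
    linarith
  have hη' : 0 < η / (2 * (k + 1)) := by positivity
  obtain ⟨d₁, γ, hd₁, hd₁1, hγ, hT⟩ := term_one hρ B hη'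
  set d₀ : ℝ := min d₁ (η / (2 * (k + 1)) / (2 * S * (|B| + 1))) with hd₀
  have hd₀0 : 0 < d₀ := lt_min hd₁ (by positivity)
  have hd₀1 : d₀ ≤ 1 := (min_le_left _ _).trans hd₁1
  -- bounds of order `k`
  have hB : ∀ m : ℕ, ∃ b : ℝ, 0 < b ∧ Cl k b (cut ρ m d₀) := fun m =>
    exists_cl (cut_smooth hρ.sm m d₀) (supp_of_off fun x hx => cut_off hρ hd₀0 hd₀1 hx)
  choose b hb0 hb1 using hB
  refine ⟨(∑ m ∈ Finset.range (k + 1), 2 ^ k * (b m * |B|)) + η / 2, γ, hγ,
    fun a ha hak ha0 haγ => ?_⟩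
  have hB0 : 0 ≤ B := cl_nonneg (hak 0 (Nat.zero_le _))
  have habs : |B| = B := abs_of_nonneg hB0
  obtain ⟨d, hd0, hd1, hdk, hsmall⟩ := exists_radii1 hρ k hd₀0 hd₀1 (half_pos hη) ha
  have hfs : ∀ m, ContDiff ℝ ∞ (fun x => cut ρ m (d m) x * a m x) := fun m =>
    (cut_smooth hρ.sm _ _).mul (ha m)
  have hsm0 : ∀ m, k < m → ∀ l, l < m →
      Cl l (η / 2 * (1 / 2) ^ m) (fun x => cut ρ m (d m) x * a m x) := fun m hm l hl =>
    hsmall m hm 0 l (by omega)
  have hsumm := fun x => summable_terms (n := n) (f := fun m x => cut ρ m (d m) x * a m x) hsm0 x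
  have hSm := shift_smooth (ρ := ρ) (d := d) hρ.sm ha hsmall
  have hdec : ∀ M x, ∑' m, cut ρ m (d m) x * a m x =
      (∑ m ∈ Finset.range M, cut ρ m (d m) x * a m x) +
      ρ x ^ M * ∑' m, cut ρ m (d (m + M)) x * a (m + M) x := by
    intro M x
    rw [← (hsumm x).sum_add_tsum_nat_add M, ← tsum_mul_left]
    congr 1
    refine tsum_congr fun m => ?_
    simp only [cut]
    ring
  obtain ⟨ht1, ht2⟩ := tail_cl (k := k) (half_pos hη).le hfs hsm0
  have e1 : (fun x => ∑' m, cut ρ m (d m) x * a m x) = fun x =>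
      (∑ m ∈ Finset.range (k + 1), cut ρ m (d m) x * a m x) +
      ∑' m, cut ρ (m + (k + 1)) (d (m + (k + 1))) x * a (m + (k + 1)) x := by
    funext x
    exact ((hsumm x).sum_add_tsum_nat_add (k + 1)).symm
  refine ⟨fun x => ∑' m, cut ρ m (d m) x * a m x, hSm 0, ?_, ?_, fun x hx => ?_, fun M => ?_⟩
  · -- `C^1`
    have hterm : ∀ m < k + 1, Cl 1 (η / (2 * (k + 1))) (fun x => cut ρ m (d m) x * a m x) := by
      intro m hm
      rw [hdk m (by omega)]
      rcases Nat.lt_or_ge m 2 with h2 | h2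
      · interval_cases m
        · have e : (fun x => cut ρ 0 d₀ x * a 0 x) = fun _ => 0 := by
            funext x
            rw [ha0 x, mul_zero]
          rw [e]
          intro l hl x
          rw [iteratedFDeriv_fun_zero]
          simpa using hη'.le
        · exact hT d₀ hd₀0 (min_le_left _ _) (a 1) (ha 1) (cl_ord (hak 1 hk) hk) haγ
      · have h3 := cl_mul (cut_smooth hρ.sm m d₀) (ha m) (hCm1 m h2 d₀ hd₀0 hd₀1)
          (cl_ord (hak m (by omega)) hk)
        refine cl_le h3 ?_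
        have h4 : Cm m ≤ S := by
          have : Cm m ≤ ∑ m ∈ Finset.range (k + 1), Cm m :=
            Finset.single_le_sum (f := Cm) (fun i _ => (hCm0 i).le) (Finset.mem_range.mpr hm)
          linarith
        have h5 : d₀ ≤ η / (2 * (k + 1)) / (2 * S * (B + 1)) := by
          have := min_le_right d₁ (η / (2 * (k + 1)) / (2 * S * (|B| + 1)))
          rw [habs] at this
          rwa [hd₀, habs]
        calc 2 ^ 1 * (Cm m * d₀ * B)
            ≤ 2 ^ 1 * (S * (η / (2 * (k + 1)) / (2 * S * (B + 1))) * (B + 1)) := by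
              have h6 : B ≤ B + 1 := by linarith
              have h7 := (hCm0 m).le
              gcongr
          _ = η / (2 * (k + 1)) := by
              have : B + 1 ≠ 0 := by positivity
              field_simp
    have hhead : Cl 1 (η / 2) (fun x => ∑ m ∈ Finset.range (k + 1), cut ρ m (d m) x * a m x) := by
      have h1 := cl_sum hfs (k + 1) hterm
      refine cl_le h1 (le_of_eq ?_)
      push_cast
      field_simp
    rw [e1]
    have h2 := cl_add (ContDiff.sum fun m _ => hfs m) ht1 hhead (cl_ord ht2 hk)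
    exact cl_le h2 (le_of_eq (by ring))
  · -- `C^k`
    have hsum : ∀ N ≤ k + 1, Cl k (∑ m ∈ Finset.range N, 2 ^ k * (b m * |B|))
        (fun x => ∑ m ∈ Finset.range N, cut ρ m (d m) x * a m x) := by
      intro N
      induction N with
      | zero =>
        intro _ l hl x
        simp only [Finset.range_zero, Finset.sum_empty]
        rw [iteratedFDeriv_fun_zero]
        simp
      | succ N ih =>
        intro hN
        have h3 := cl_mul (cut_smooth hρ.sm N d₀) (ha N) (hb1 N) (hak N (by omega))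
        have h4 := cl_add (ContDiff.sum fun m _ => hfs m) (hfs N) (ih (by omega))
          (by rw [hdk N (by omega)]; exact h3)
        have e2 : (fun x => ∑ m ∈ Finset.range (N + 1), cut ρ m (d m) x * a m x) =
            fun x => (∑ m ∈ Finset.range N, cut ρ m (d m) x * a m x) + cut ρ N (d N) x * a N x := by
          funext x
          rw [Finset.sum_range_succ]
        rw [e2, Finset.sum_range_succ]
        refine cl_le h4 (le_of_eq ?_)
        rw [habs]
    rw [e1]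
    exact cl_add (ContDiff.sum fun m _ => hfs m) ht1 (hsum (k + 1) le_rfl) ht2
  · show ∑' m, cut ρ m (d m) x * a m x = 0
    have h1 : ∀ m, cut ρ m (d m) x * a m x = 0 := fun m => by
      rw [cut_off hρ (hd0 m) (hd1 m) hx, zero_mul]
    simp only [h1, tsum_zero]
  · -- division
    have hDv : ∀ m, ∃ D : ℝ → ℝ, ContDiff ℝ ∞ D ∧ ∀ σ, chi (σ / d m) - 1 = σ ^ M * D σ := fun m =>
      divr (hd0 m) M
    choose D hDs hD1 using hDv
    refine ⟨fun x => (∑ m ∈ Finset.range M, ρ x ^ m * D m (ρ x) * a m x) +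
      ∑' m, cut ρ m (d (m + M)) x * a (m + M) x, ?_, fun x => ?_⟩
    · refine ContDiff.add (ContDiff.sum fun m _ => ?_) (hSm M)
      exact ((hρ.sm.pow m).mul ((hDs m).comp hρ.sm)).mul (ha m)
    · show ∑' m, cut ρ m (d m) x * a m x = _
      rw [hdec M x, mul_add, ← add_assoc]
      congr 1
      rw [Finset.mul_sum, ← Finset.sum_add_distrib]
      refine Finset.sum_congr rfl fun m _ => ?_
      have h1 : chi (ρ x / d m) = 1 + ρ x ^ M * D m (ρ x) := by
        have := hD1 m (ρ x)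
        linarith
      rw [cut, h1]
      ring

end Vale.Agent.P088.LR.H501B
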